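import Vale.Agent.P207.N5.H988.Near
import Vale.Agent.P207.N5.H790.T2a
import Vale.Agent.P207.N5.H761.T3A
import Vale.Agent.P207.H469.Ball
import Vale.Agent.P207.N3.H469.Calc

/-!
# P207, line N5, row T3, part (Q): from the centre of the disc to the whole unit ball

`t3_quant`: if `‖D hh x ξ 0 - D Aq x ξ 0‖ ≤ C t ^ κ` at the centre for all frames, then
`‖D hh x ξ q - D Aq x ξ q‖ ≤ C t ^ κ` for all `q ∈ ball 0 1`.
-/

set_option linter.all false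

open Set Filter Topology Metric
open scoped ContDiff

noncomputable section

namespace Vale.Agent.P207.N4.V.H988

open Vale.Agent.P207.N3

variable [Dim]

variable {Γ X B : Type} [Group Γ] [MetricSpace X] [ProperSpace X] [MulAction Γ X]
  [IsIsometricSMul Γ X] [TopologicalSpace B] [CompactSpace B] [T2Space B] [MulAction Γ B]
  [ContinuousConstSMul Γ B] {L : Leaf Γ X B} [MeasurableSpace B] [BorelSpace B] {V : Type}
  [NormedAddCommGroup V] [NormedSpace ℝ V] [FiniteDimensional ℝ V]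

open H761 (tr BaseCh HqC)

theorem ep_flip' (x : X) : L.ep (L.flip x) = L.em x := by
  rw [L.ep_flip, L.flip_flip]

theorem em_tr {x : X} {η : B} (h : η ≠ L.em x) : L.em (tr L x η) = L.em x := by
  have h' : η ≠ L.ep (L.flip x) := by rw [ep_flip']; exact h
  rw [tr, ← L.ep_flip, L.hol_ep _ _ h', ep_flip']

theorem ep_tr {x : X} {η : B} (h : η ≠ L.em x) : L.ep (tr L x η) = η := by
  have h' : η ≠ L.ep (L.flip x) := by rw [ep_flip']; exact h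
  rw [tr, ep_flip', L.hol_em _ _ h']

theorem tr_smul (g : Γ) {x : X} {η : B} (h : η ≠ L.em x) :
    tr L (g • x) (g • η) = g • tr L x η := by
  have h' : η ≠ L.ep (L.flip x) := by rw [ep_flip']; exact h
  rw [tr, L.flip_smul, L.hol_smul g _ _ h', L.flip_smul, tr]

theorem tr_cont : ContinuousOn (fun p : X × B => tr L p.1 p.2) {p | p.2 ≠ L.em p.1} := by
  have h1 : ContinuousOn (fun p : X × B => L.hol p.2 (L.flip p.1)) {p | p.2 ≠ L.em p.1} := by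
    refine L.hol_cont.comp (f := fun p : X × B => (p.2, L.flip p.1))
      (continuous_snd.prodMk (L.flip_cont.comp continuous_fst)).continuousOn ?_
    intro p hp
    show p.2 ≠ L.ep (L.flip p.1)
    rw [ep_flip']
    exact hp
  exact L.flip_cont.comp_continuousOn h1

/-- the frame at the point `q` of the leaf of `x`, in the affine coordinate -/
def trq (P : Pic L V) (x : X) (q : E2) : X := tr L x (P.Af.pt x q)

variable (P : Pic L V)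

theorem em_trq (x : X) (q : E2) : L.em (trq P x q) = L.em x := em_tr (P.Af.pt_ne x q)

theorem ep_trq (x : X) (q : E2) : L.ep (trq P x q) = P.Af.pt x q := ep_tr (P.Af.pt_ne x q)

theorem trq_smul (g : Γ) (x : X) (q : E2) : trq P (g • x) q = g • trq P x q := by
  rw [trq, P.Af.pt_smul, tr_smul g (P.Af.pt_ne x q), trq]

theorem trq_cont : Continuous fun p : X × E2 => trq P p.1 p.2 :=
  tr_cont.comp_continuous (continuous_fst.prodMk P.Af.pt_cont) fun p => P.Af.pt_ne p.1 p.2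

/-- the linear part of the change of frame on the leaf of `x` -/
theorem pt_trq (x : X) (q p : E2) :
    P.Af.pt (trq P x q) (P.Af.lin x (trq P x q) (p - q)) = P.Af.pt x p := by
  have h := P.Af.leaf x (trq P x q) (em_trq P x q).symm p
  rwa [ep_trq, P.Af.ch_pt] at h

theorem lin_trq (x : X) (q v : E2) :
    P.Af.lin x (trq P x q) v = P.Af.ch (trq P x q) (P.Af.pt x (q + v)) := by
  have h := pt_trq P x q (q + v)
  rw [add_sub_cancel_left] at h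
  rw [← h, P.Af.ch_pt]

section

variable {P} {x : X} {ξ : B} {q : E2}

theorem ne_ep_trq (hq : P.Af.pt x q ≠ ξ) : ξ ≠ L.ep (trq P x q) := by
  rw [ep_trq]; exact hq.symm

/-- the same on the leaf `ξ` -/
theorem ch_hol_trq (hx : ξ ≠ L.ep x) (hq : P.Af.pt x q ≠ ξ) {η : B} (hη : η ≠ ξ) :
    P.Af.ch (L.hol ξ (trq P x q)) η = P.Af.lin (L.hol ξ x) (L.hol ξ (trq P x q))
      (P.Af.ch (L.hol ξ x) η - P.hh x ξ q) := by
  have hy := ne_ep_trq (P := P) hq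
  have e1 : L.em (L.hol ξ x) = ξ := L.hol_em ξ x hx
  have e2 : L.em (L.hol ξ (trq P x q)) = ξ := L.hol_em ξ _ hy
  have h := P.Af.leaf (L.hol ξ x) (L.hol ξ (trq P x q)) (by rw [e1, e2])
    (P.Af.ch (L.hol ξ x) η)
  rw [P.Af.pt_ch _ _ (by rw [e1]; exact hη), L.hol_ep _ _ hy, ep_trq] at h
  rw [← h, P.Af.ch_pt, h]
  rfl

theorem lin_hol_symm (hx : ξ ≠ L.ep x) (hq : P.Af.pt x q ≠ ξ) (v : E2) :
    (P.Af.lin (L.hol ξ x) (L.hol ξ (trq P x q))).symm v =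
      P.Af.ch (L.hol ξ x) (P.Af.pt (L.hol ξ (trq P x q)) v) - P.hh x ξ q := by
  have hy := ne_ep_trq (P := P) hq
  rw [ContinuousLinearEquiv.symm_apply_eq, ← ch_hol_trq hx hq, P.Af.ch_pt]
  have h := P.Af.pt_ne (L.hol ξ (trq P x q)) v
  rwa [L.hol_em ξ _ hy] at h

/-- the holonomy at the point `q`, seen from the frame at `q` -/
theorem hh_trq (hx : ξ ≠ L.ep x) (hq : P.Af.pt x q ≠ ξ) {p : E2} (hp : P.Af.pt x p ≠ ξ) :
    P.hh x ξ p = (P.Af.lin (L.hol ξ x) (L.hol ξ (trq P x q))).symm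
      (P.hh (trq P x q) ξ (P.Af.lin x (trq P x q) (p - q))) + P.hh x ξ q := by
  have h1 : P.hh (trq P x q) ξ (P.Af.lin x (trq P x q) (p - q)) =
      P.Af.lin (L.hol ξ x) (L.hol ξ (trq P x q)) (P.hh x ξ p - P.hh x ξ q) := by
    show P.Af.ch (L.hol ξ (trq P x q)) (P.Af.pt (trq P x q)
      (P.Af.lin x (trq P x q) (p - q))) = _
    rw [pt_trq, ch_hol_trq hx hq hp]
    rfl
  rw [h1, ContinuousLinearEquiv.symm_apply_apply, sub_add_cancel]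

end

/-- uniform bounds of the changes of frames -/
theorem lin_bd : ∃ ε C : ℝ, 0 < ε ∧ 0 ≤ C ∧ ∀ x ξ, P.Nr ε x ξ → ∀ q ∈ closedBall (0 : E2) 1,
    P.Af.pt x q ≠ ξ ∧ ‖(P.Af.lin x (trq P x q) : E2 →L[ℝ] E2)‖ ≤ C ∧
      ‖((P.Af.lin (L.hol ξ x) (L.hol ξ (trq P x q))).symm : E2 →L[ℝ] E2)‖ ≤ C := by
  set Y : Set (E2 × E2) := closedBall (0 : E2) 1 ×ˢ closedBall (0 : E2) 1 with hY
  have hYc : IsCompact Y := (isCompact_closedBall _ _).prod (isCompact_closedBall _ _)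
  set O : Set ((X × B) × (E2 × E2)) :=
    {p | P.Af.pt p.1.1 p.2.1 ≠ p.1.2 ∧ p.1.2 ≠ L.ep p.1.1} with hO
  have cx : Continuous fun p : (X × B) × (E2 × E2) => p.1.1 := continuous_fst.comp continuous_fst
  have cξ : Continuous fun p : (X × B) × (E2 × E2) => p.1.2 := continuous_snd.comp continuous_fst
  have cq : Continuous fun p : (X × B) × (E2 × E2) => p.2.1 := continuous_fst.comp continuous_snd
  have cv : Continuous fun p : (X × B) × (E2 × E2) => p.2.2 := continuous_snd.comp continuous_snd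
  have cep : Continuous L.ep := by
    have : L.ep = fun x => L.em (L.flip x) := funext L.ep_flip
    rw [this]
    exact L.em_cont.comp L.flip_cont
  have cpt : Continuous fun p : (X × B) × (E2 × E2) => P.Af.pt p.1.1 p.2.1 :=
    P.Af.pt_cont.comp (cx.prodMk cq)
  have hOo : IsOpen O := (isOpen_ne_fun cpt cξ).inter (isOpen_ne_fun cξ (cep.comp cx))
  have cy : Continuous fun p : (X × B) × (E2 × E2) => trq P p.1.1 p.2.1 :=
    (trq_cont P).comp (cx.prodMk cq)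
  set Φ : (X × B) × (E2 × E2) → ℝ := fun p =>
    ‖P.Af.ch (trq P p.1.1 p.2.1) (P.Af.pt p.1.1 (p.2.1 + p.2.2))‖ +
      ‖P.Af.ch (L.hol p.1.2 p.1.1) (P.Af.pt (L.hol p.1.2 (trq P p.1.1 p.2.1)) p.2.2) -
        P.Af.ch (L.hol p.1.2 p.1.1) (P.Af.pt p.1.1 p.2.1)‖ with hΦ
  have cX1 : ContinuousOn (fun p : (X × B) × (E2 × E2) => L.hol p.1.2 p.1.1) O :=
    L.hol_cont.comp (f := fun p : (X × B) × (E2 × E2) => (p.1.2, p.1.1))
      (cξ.prodMk cx).continuousOn fun p hp => hp.2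
  have cY1 : ContinuousOn (fun p : (X × B) × (E2 × E2) => L.hol p.1.2 (trq P p.1.1 p.2.1)) O :=
    L.hol_cont.comp (f := fun p : (X × B) × (E2 × E2) => (p.1.2, trq P p.1.1 p.2.1))
      (cξ.prodMk cy).continuousOn fun p hp => ne_ep_trq (P := P) hp.1
  have hΦc : ContinuousOn Φ O := by
    have h1 : Continuous fun p : (X × B) × (E2 × E2) =>
        P.Af.ch (trq P p.1.1 p.2.1) (P.Af.pt p.1.1 (p.2.1 + p.2.2)) := by
      refine P.Af.ch_cont.comp_continuous (cy.prodMk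
        (P.Af.pt_cont.comp (cx.prodMk (cq.add cv)))) fun p => ?_
      show P.Af.pt p.1.1 (p.2.1 + p.2.2) ≠ L.em (trq P p.1.1 p.2.1)
      rw [em_trq]
      exact P.Af.pt_ne _ _
    have h2 : ContinuousOn (fun p : (X × B) × (E2 × E2) =>
        P.Af.ch (L.hol p.1.2 p.1.1) (P.Af.pt (L.hol p.1.2 (trq P p.1.1 p.2.1)) p.2.2)) O := by
      refine P.Af.ch_cont.comp (f := fun p : (X × B) × (E2 × E2) =>
        (L.hol p.1.2 p.1.1, P.Af.pt (L.hol p.1.2 (trq P p.1.1 p.2.1)) p.2.2))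
        (cX1.prodMk (P.Af.pt_cont.comp_continuousOn (cY1.prodMk cv.continuousOn))) fun p hp => ?_
      show P.Af.pt (L.hol p.1.2 (trq P p.1.1 p.2.1)) p.2.2 ≠ L.em (L.hol p.1.2 p.1.1)
      have h := P.Af.pt_ne (L.hol p.1.2 (trq P p.1.1 p.2.1)) p.2.2
      rw [L.hol_em _ _ (ne_ep_trq (P := P) hp.1)] at h
      rw [L.hol_em _ _ hp.2]
      exact h
    have h3 : ContinuousOn (fun p : (X × B) × (E2 × E2) =>
        P.Af.ch (L.hol p.1.2 p.1.1) (P.Af.pt p.1.1 p.2.1)) O := by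
      refine P.Af.ch_cont.comp (f := fun p : (X × B) × (E2 × E2) =>
        (L.hol p.1.2 p.1.1, P.Af.pt p.1.1 p.2.1))
        (cX1.prodMk cpt.continuousOn) fun p hp => ?_
      show P.Af.pt p.1.1 p.2.1 ≠ L.em (L.hol p.1.2 p.1.1)
      rw [L.hol_em _ _ hp.2]
      exact hp.1
    exact h1.norm.continuousOn.add (h2.sub h3).norm
  have hep : ∀ (g : Γ) (x : X), L.ep (g • x) = g • L.ep x := fun g x => by
    rw [L.ep_flip, L.flip_smul, L.em_smul, ← L.ep_flip]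
  have hsm : ∀ (g : Γ) (ξ η : B), g • ξ = g • η ↔ ξ = η := fun g ξ η => smul_left_cancel_iff g
  obtain ⟨ε, C, hε, hC, H⟩ := near_bdd P hOo hYc (Φ := Φ) hΦc (by
      rintro g x ξ ⟨q, v⟩ ⟨h1, h2⟩
      refine ⟨fun h => h1 ?_, fun h => h2 ?_⟩
      · show P.Af.pt (g • x) q = g • ξ
        rw [P.Af.pt_smul]
        exact congrArg (g • ·) h
      · show g • ξ = L.ep (g • x)
        rw [hep]
        exact congrArg (g • ·) h) (by
      rintro g x ξ ⟨q, v⟩ ⟨h1, h2⟩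
      have h1' : P.Af.pt x q ≠ ξ := h1
      have h2' : ξ ≠ L.ep x := h2
      have e0 : L.em (L.hol ξ x) = ξ := L.hol_em _ _ h2'
      have e1 : L.em (L.hol ξ (trq P x q)) = ξ := L.hol_em _ _ (ne_ep_trq (P := P) h1')
      show ‖P.Af.ch (trq P (g • x) q) (P.Af.pt (g • x) (q + v))‖ +
        ‖P.Af.ch (L.hol (g • ξ) (g • x)) (P.Af.pt (L.hol (g • ξ) (trq P (g • x) q)) v) -
        P.Af.ch (L.hol (g • ξ) (g • x)) (P.Af.pt (g • x) q)‖ =
        ‖P.Af.ch (trq P x q) (P.Af.pt x (q + v))‖ +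
        ‖P.Af.ch (L.hol ξ x) (P.Af.pt (L.hol ξ (trq P x q)) v) -
        P.Af.ch (L.hol ξ x) (P.Af.pt x q)‖
      rw [trq_smul, P.Af.pt_smul, P.Af.pt_smul,
        P.Af.ch_smul g _ _ (by rw [em_trq]; exact P.Af.pt_ne _ _),
        L.hol_smul g _ _ h2', L.hol_smul g _ _ (ne_ep_trq (P := P) h1'), P.Af.pt_smul,
        P.Af.ch_smul g _ _ (by
          have h := P.Af.pt_ne (L.hol ξ (trq P x q)) v
          rw [e1] at h
          rw [e0]
          exact h),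
        P.Af.ch_smul g _ _ (by rw [e0]; exact h1')]) (by
      rintro x ⟨q, v⟩ -
      exact ⟨P.Af.pt_ne x q, L.em_ne_ep x⟩)
  refine ⟨ε, C, hε, hC, fun x ξ hN q hq => ?_⟩
  have h0 : (0 : E2) ∈ closedBall (0 : E2) 1 := mem_closedBall_self zero_le_one
  obtain ⟨⟨h1, h2⟩, -⟩ := H x ξ hN (q, 0) ⟨hq, h0⟩
  have h1' : P.Af.pt x q ≠ ξ := h1
  have h2' : ξ ≠ L.ep x := h2
  refine ⟨h1', ?_, ?_⟩
  · refine ContinuousLinearMap.opNorm_le_of_unit_norm hC fun v hv => ?_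
    have hv' : v ∈ closedBall (0 : E2) 1 := by rw [mem_closedBall_zero_iff, hv]
    have h3 : ‖P.Af.ch (trq P x q) (P.Af.pt x (q + v))‖ +
        ‖P.Af.ch (L.hol ξ x) (P.Af.pt (L.hol ξ (trq P x q)) v) -
        P.Af.ch (L.hol ξ x) (P.Af.pt x q)‖ ≤ C := (H x ξ hN (q, v) ⟨hq, hv'⟩).2
    show ‖P.Af.lin x (trq P x q) v‖ ≤ C
    rw [lin_trq]
    have := norm_nonneg (P.Af.ch (L.hol ξ x) (P.Af.pt (L.hol ξ (trq P x q)) v) -
        P.Af.ch (L.hol ξ x) (P.Af.pt x q))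
    linarith
  · refine ContinuousLinearMap.opNorm_le_of_unit_norm hC fun v hv => ?_
    have hv' : v ∈ closedBall (0 : E2) 1 := by rw [mem_closedBall_zero_iff, hv]
    have h3 : ‖P.Af.ch (trq P x q) (P.Af.pt x (q + v))‖ +
        ‖P.Af.ch (L.hol ξ x) (P.Af.pt (L.hol ξ (trq P x q)) v) -
        P.Af.ch (L.hol ξ x) (P.Af.pt x q)‖ ≤ C := (H x ξ hN (q, v) ⟨hq, hv'⟩).2
    show ‖(P.Af.lin (L.hol ξ x) (L.hol ξ (trq P x q))).symm v‖ ≤ C
    rw [lin_hol_symm h2' h1']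
    have h4 := norm_nonneg (P.Af.ch (trq P x q) (P.Af.pt x (q + v)))
    have h5 : P.hh x ξ q = P.Af.ch (L.hol ξ x) (P.Af.pt x q) := rfl
    rw [h5]
    linarith

/-! ### bounds of the charts -/

theorem aq_bd {ε₀ : ℝ} (h0 : 0 < ε₀) (h2a : P.T2a ε₀) : ∃ ε₁ : ℝ, 0 < ε₁ ∧ ε₁ ≤ ε₀ ∧ ε₁ ≤ 1 ∧
    ∃ M : ℕ → ℝ, (∀ k, 0 ≤ M k) ∧ ∀ x ξ, P.Nr ε₁ x ξ → ContDiffOn ℝ ∞ (P.Aq x ξ) (ball 0 1) ∧
      ∀ k, ∀ q ∈ ball (0 : E2) 1, ‖iteratedFDeriv ℝ k (P.Aq x ξ) q‖ ≤ M k := by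
  obtain ⟨hk, h1, hs, C0, hC0⟩ := h2a
  obtain ⟨ρ, hρ, h1'⟩ := h1 1 one_pos
  have ha := P.Ra.a_pos
  have hp := P.Ra.pinch
  have hκ : ((0 : ℝ) + 1) * P.Ra.b < 2 * P.Ra.a := by linarith
  refine ⟨min ε₀ (min ρ 1), lt_min h0 (lt_min hρ one_pos), min_le_left _ _,
    (min_le_right _ _).trans (min_le_right _ _), ?_⟩
  have hN0 : ∀ {x ξ}, P.Nr (min ε₀ (min ρ 1)) x ξ → P.Nr ε₀ x ξ := fun h =>
    Nr.mono h (min_le_left _ _)
  have hNρ : ∀ {x ξ}, P.Nr (min ε₀ (min ρ 1)) x ξ → P.Nr ρ x ξ := fun h =>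
    Nr.mono h ((min_le_right _ _).trans (min_le_left _ _))
  have hone : ∀ x ξ, P.Nr (min ε₀ (min ρ 1)) x ξ → ∀ q ∈ ball (0 : E2) 1,
      ‖fderiv ℝ (P.Aq x ξ) q‖ ≤ 2 := by
    intro x ξ hN q hq
    have h3 := h1' x ξ (hNρ hN) q hq
    have h4 : ‖ContinuousLinearMap.id ℝ E2‖ ≤ 1 := ContinuousLinearMap.norm_id_le
    calc ‖fderiv ℝ (P.Aq x ξ) q‖ = ‖(fderiv ℝ (P.Aq x ξ) q - ContinuousLinearMap.id ℝ E2) +
          ContinuousLinearMap.id ℝ E2‖ := by rw [sub_add_cancel]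
      _ ≤ 1 + 1 := (norm_add_le _ _).trans (add_le_add h3 h4)
      _ = 2 := by norm_num
  have key : ∀ k : ℕ, ∃ C : ℝ, 0 ≤ C ∧ ∀ x ξ, P.Nr (min ε₀ (min ρ 1)) x ξ →
      ∀ q ∈ ball (0 : E2) 1, ‖iteratedFDeriv ℝ k (P.Aq x ξ) q‖ ≤ C := by
    intro k
    rcases Nat.lt_or_ge k 2 with hk2 | hk2
    · rcases Nat.eq_zero_or_pos k with rfl | hk0
      · refine ⟨|C0| + 2, by positivity, fun x ξ hN q hq => ?_⟩
        rw [norm_iteratedFDeriv_zero]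
        have hsm := hs x ξ (hN0 hN)
        have hd : ∀ p ∈ ball (0 : E2) 1, DifferentiableAt ℝ (P.Aq x ξ) p := fun p hp =>
          (hsm.contDiffAt (isOpen_ball.mem_nhds hp)).differentiableAt (by simp)
        have h5 := (convex_ball (0 : E2) 1).norm_image_sub_le_of_norm_fderiv_le hd
          (hone x ξ hN) (mem_ball_self one_pos) hq
        have h6 := hC0 x ξ (hN0 hN)
        have h7 : ‖P.gr x ξ 0‖ ≤ 1 :=
          hN.2.trans ((min_le_right _ _).trans (min_le_right _ _))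
        have h8 : C0 * ‖P.gr x ξ 0‖ ≤ |C0| * 1 :=
          mul_le_mul (le_abs_self _) h7 (norm_nonneg _) (abs_nonneg _)
        have h9 : ‖q - 0‖ ≤ 1 := by
          rw [sub_zero]
          exact (mem_ball_zero_iff.1 hq).le
        calc ‖P.Aq x ξ q‖ = ‖(P.Aq x ξ q - P.Aq x ξ 0) + P.Aq x ξ 0‖ := by rw [sub_add_cancel]
          _ ≤ ‖P.Aq x ξ q - P.Aq x ξ 0‖ + ‖P.Aq x ξ 0‖ := norm_add_le _ _
          _ ≤ 2 * ‖q - 0‖ + |C0| * 1 := add_le_add h5 (h6.trans h8)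
          _ ≤ _ := by linarith
      · have hk1 : k = 1 := by omega
        subst hk1
        refine ⟨2, by norm_num, fun x ξ hN q hq => ?_⟩
        rw [norm_iteratedFDeriv_one]
        exact hone x ξ hN q hq
    · obtain ⟨C, hC⟩ := hk 0 hκ k hk2
      refine ⟨|C|, abs_nonneg _, fun x ξ hN q hq => ?_⟩
      refine (hC x ξ (hN0 hN) q hq).trans ?_
      rw [Real.rpow_zero, mul_one]
      exact le_abs_self C
  choose M hM0 hM using key
  exact ⟨M, hM0, fun x ξ hN => ⟨hs x ξ (hN0 hN), fun k q hq => hM k x ξ hN q hq⟩⟩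

/-! ### interpolation -/

theorem interp_ball {κ r C₀ : ℝ} (hκ0 : 0 < κ) (hκ : κ < 1) (hr : 0 < r) (hC₀ : 0 ≤ C₀)
    (M : ℕ → ℝ) : ∃ K : ℝ, 0 ≤ K ∧ ∀ (Z : E2 → E2) (c : E2) (s : ℝ),
      ContDiffOn ℝ ∞ Z (ball c r) → (∀ k, ∀ y ∈ ball c r, ‖iteratedFDeriv ℝ k Z y‖ ≤ M k) →
      0 < s → (∀ y ∈ ball c r, ‖Z y‖ ≤ C₀ * s) → ∀ y ∈ ball c r, ‖fderiv ℝ Z y‖ ≤ K * s ^ κ := by
  obtain ⟨C, hC, H⟩ := Vale.Agent.P207.H469.exists_interp_full.{0} hr 1 (ε := 1 - κ)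
    (by linarith) M
  set D : ℝ := C₀ + 1 with hD
  have hD0 : 0 < D := by positivity
  refine ⟨(C + |M 1|) * D ^ κ, by positivity, ?_⟩
  intro Z c s hZ hM hs hb y hy
  have hDs : 0 < D * s := mul_pos hD0 hs
  have e1 : (D * s) ^ κ = D ^ κ * s ^ κ := Real.mul_rpow hD0.le hs.le
  have hp : 0 < (D * s) ^ κ := Real.rpow_pos_of_pos hDs _
  rw [mul_assoc, ← e1]
  rcases lt_or_ge 1 (D * s) with h1 | h1
  · have h2 : 1 ≤ (D * s) ^ κ := Real.one_le_rpow h1.le hκ0.le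
    have h3 : ‖fderiv ℝ Z y‖ ≤ |M 1| := by
      rw [← norm_iteratedFDeriv_one]
      exact (hM 1 y hy).trans (le_abs_self _)
    calc ‖fderiv ℝ Z y‖ ≤ |M 1| * 1 := by rw [mul_one]; exact h3
      _ ≤ (C + |M 1|) * (D * s) ^ κ := by
          apply mul_le_mul _ h2 zero_le_one (by positivity)
          linarith
  · set W : E2 → E2 := fun w => Z (c + w) with hW
    have hmem : ∀ w ∈ ball (0 : E2) r, c + w ∈ ball c r := by
      intro w hw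
      rw [mem_ball, dist_eq_norm, add_sub_cancel_left]
      simpa using hw
    have hWs : ContDiffOn ℝ ∞ W (ball 0 r) :=
      hZ.comp (contDiff_const.add contDiff_id).contDiffOn hmem
    have hWi : ∀ (k : ℕ) (w : E2), iteratedFDeriv ℝ k W w = iteratedFDeriv ℝ k Z (c + w) := by
      intro k w
      have := iteratedFDeriv_comp_add_left (𝕜 := ℝ) (f := Z) k c w
      exact this
    have h3 := H E2 E2 W hWs (fun k w hw => by rw [hWi]; exact hM k _ (hmem w hw)) (D * s) hDs h1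
      (fun w hw => (hb _ (hmem w hw)).trans
        (mul_le_mul_of_nonneg_right (by linarith) hs.le)) (y - c) (by
          rw [mem_ball_zero_iff, ← dist_eq_norm]; exact hy)
    rw [hWi, add_sub_cancel, norm_iteratedFDeriv_one, sub_sub_cancel] at h3
    refine h3.trans (mul_le_mul_of_nonneg_right ?_ hp.le)
    have := abs_nonneg (M 1)
    linarith

theorem lim_le {κ K a t s₀ : ℝ} (hκ : 0 < κ) (ht : 0 ≤ t) (hs₀ : 0 < s₀) (ht1 : t ≤ s₀)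
    (h : ∀ s, t ≤ s → 0 < s → s ≤ s₀ → a ≤ K * s ^ κ) : a ≤ K * t ^ κ := by
  rcases ht.eq_or_lt with h0 | h0
  · rw [← h0, Real.zero_rpow hκ.ne', mul_zero]
    have h1 : Tendsto (fun s : ℝ => K * s ^ κ) (𝓝[>] 0) (𝓝 (K * 0 ^ κ)) :=
      ((Real.continuousAt_rpow_const 0 κ (Or.inr hκ.le)).tendsto.const_mul K).mono_left
        nhdsWithin_le_nhds
    rw [Real.zero_rpow hκ.ne', mul_zero] at h1
    refine ge_of_tendsto h1 ?_
    filter_upwards [Ioc_mem_nhdsGT hs₀] with s hs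
    exact h s (by rw [← h0]; exact hs.1.le) hs.1 hs.2
  · exact h t le_rfl h0 ht1

/-! ### comparison of two charts -/

section cmp

variable {f g : E2 → E2} {M : ℕ → ℝ} {CR r : ℝ} {R Rs : E2 →L[ℝ] E2} {q : E2}

/-- the difference -/
def ZZ (f g : E2 → E2) (R Rs : E2 →L[ℝ] E2) (q p : E2) : E2 := f p - Rs (g (R (p - q)))

theorem mem_R (hCR : 0 ≤ CR) (hR : ‖R‖ ≤ CR) (hr : CR * (3 * r) ≤ 1 / 2) {p : E2}
    (hp : p ∈ ball q (3 * r)) : ‖R (p - q)‖ ≤ 1 / 2 := by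
  rw [mem_ball, dist_eq_norm] at hp
  calc ‖R (p - q)‖ ≤ ‖R‖ * ‖p - q‖ := R.le_opNorm _
    _ ≤ CR * (3 * r) := mul_le_mul hR hp.le (norm_nonneg _) hCR
    _ ≤ 1 / 2 := hr

theorem gR_smooth (hCR : 0 ≤ CR) (hR : ‖R‖ ≤ CR) (hr : CR * (3 * r) ≤ 1 / 2)
    (hg : ContDiffOn ℝ ∞ g (ball 0 1)) :
    ContDiffOn ℝ ∞ (fun p => Rs (g (R (p - q)))) (ball q (3 * r)) := by
  refine Rs.contDiff.comp_contDiffOn (hg.comp (R.contDiff.comp
    (contDiff_id.sub contDiff_const)).contDiffOn fun p hp => ?_)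
  have := mem_R hCR hR hr hp
  show R (p - q) ∈ ball (0 : E2) 1
  rw [mem_ball_zero_iff]
  linarith

theorem gR_bound (hM : ∀ k, 0 ≤ M k) (hCR : 0 ≤ CR) (hR : ‖R‖ ≤ CR) (hRs : ‖Rs‖ ≤ CR)
    (hr : CR * (3 * r) ≤ 1 / 2) (hg : ContDiffOn ℝ ∞ g (ball 0 1))
    (hgM : ∀ k, ∀ y ∈ ball (0 : E2) 1, ‖iteratedFDeriv ℝ k g y‖ ≤ M k) (k : ℕ) {p : E2}
    (hp : p ∈ ball q (3 * r)) :
    ‖iteratedFDeriv ℝ k (fun p => Rs (g (R (p - q)))) p‖ ≤ CR * (M k * CR ^ k) := by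
  have h1 : R (p - q) ∈ ball (0 : E2) 1 := by
    have := mem_R hCR hR hr hp
    rw [mem_ball_zero_iff]
    linarith
  have h2 : iteratedFDeriv ℝ k (fun p => Rs (g (R (p - q)))) p =
      iteratedFDeriv ℝ k (fun w => Rs (g (R w))) (p - q) :=
    iteratedFDeriv_comp_sub (𝕜 := ℝ) (f := fun w => Rs (g (R w))) k q p
  rw [h2]
  have h3 : ContDiffAt ℝ ∞ (fun w => g (R w)) (p - q) :=
    (hg.contDiffAt (isOpen_ball.mem_nhds h1)).comp (p - q) R.contDiff.contDiffAt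
  have h4 := Rs.norm_iteratedFDeriv_comp_left (n := k) (N := ∞) h3 (by exact_mod_cast le_top)
  have h5 := H242.T2.norm_iter_comp_right_le isOpen_ball hg R h1 k
  calc ‖iteratedFDeriv ℝ k (fun w => Rs (g (R w))) (p - q)‖
      ≤ ‖Rs‖ * ‖iteratedFDeriv ℝ k (fun w => g (R w)) (p - q)‖ := h4
    _ ≤ CR * (M k * CR ^ k) := by
        refine mul_le_mul hRs (h5.trans ?_) (norm_nonneg _) hCR
        exact mul_le_mul (hgM k _ h1) (pow_le_pow_left₀ (norm_nonneg _) hR k) (by positivity)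
          (hM k)

theorem ZZ_smooth (hCR : 0 ≤ CR) (hR : ‖R‖ ≤ CR) (hr : CR * (3 * r) ≤ 1 / 2)
    (hf : ContDiffOn ℝ ∞ f (ball 0 1)) (hg : ContDiffOn ℝ ∞ g (ball 0 1)) :
    ContDiffOn ℝ ∞ (ZZ f g R Rs q) (ball 0 1 ∩ ball q (3 * r)) :=
  (hf.mono inter_subset_left).sub ((gR_smooth hCR hR hr hg).mono inter_subset_right)

theorem ZZ_bound (hM : ∀ k, 0 ≤ M k) (hCR : 0 ≤ CR) (hR : ‖R‖ ≤ CR) (hRs : ‖Rs‖ ≤ CR)
    (hr : CR * (3 * r) ≤ 1 / 2)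
    (hf : ContDiffOn ℝ ∞ f (ball 0 1)) (hg : ContDiffOn ℝ ∞ g (ball 0 1))
    (hfM : ∀ k, ∀ y ∈ ball (0 : E2) 1, ‖iteratedFDeriv ℝ k f y‖ ≤ M k)
    (hgM : ∀ k, ∀ y ∈ ball (0 : E2) 1, ‖iteratedFDeriv ℝ k g y‖ ≤ M k) (k : ℕ) {p : E2}
    (hp : p ∈ ball (0 : E2) 1 ∩ ball q (3 * r)) :
    ‖iteratedFDeriv ℝ k (ZZ f g R Rs q) p‖ ≤ M k + CR * (M k * CR ^ k) := by
  have h1 : iteratedFDeriv ℝ k (ZZ f g R Rs q) p = iteratedFDeriv ℝ k f p -
      iteratedFDeriv ℝ k (fun p => Rs (g (R (p - q)))) p :=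
    N3.H469.iteratedFDeriv_sub_on (isOpen_ball.inter isOpen_ball)
      (contDiffOn_infty.1 (hf.mono inter_subset_left) k)
      (contDiffOn_infty.1 ((gR_smooth hCR hR hr hg).mono inter_subset_right) k) hp
  rw [h1]
  exact (norm_sub_le _ _).trans (add_le_add (hfM k p hp.1)
    (gR_bound hM hCR hR hRs hr hg hgM k hp.2))

theorem ZZ_fderiv (hf : ContDiffOn ℝ ∞ f (ball 0 1)) (hg : ContDiffOn ℝ ∞ g (ball 0 1))
    (hq : q ∈ ball (0 : E2) 1) :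
    fderiv ℝ (ZZ f g R Rs q) q = fderiv ℝ f q - Rs ∘L fderiv ℝ g 0 ∘L R := by
  have h1 : HasFDerivAt f (fderiv ℝ f q) q :=
    ((hf.contDiffAt (isOpen_ball.mem_nhds hq)).differentiableAt (by simp)).hasFDerivAt
  have h2 : HasFDerivAt g (fderiv ℝ g 0) (R (q - q)) := by
    rw [sub_self, map_zero]
    exact ((hg.contDiffAt (isOpen_ball.mem_nhds (mem_ball_self one_pos))).differentiableAt
      (by simp)).hasFDerivAt
  have h3 : HasFDerivAt (fun p : E2 => R (p - q)) R q :=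
    (R.hasFDerivAt.comp q ((hasFDerivAt_id (𝕜 := ℝ) q).sub_const q)).congr_fderiv
      (ContinuousLinearMap.comp_id R)
  have h4 : HasFDerivAt (fun p : E2 => Rs (g (R (p - q)))) (Rs ∘L fderiv ℝ g 0 ∘L R) q :=
    Rs.hasFDerivAt.comp q (h2.comp q h3)
  exact (h1.sub h4).fderiv

end cmp

/-- **comparison of two charts up to the boundary of the unit ball** -/
theorem cmp_le {κ CR r C₀ CH : ℝ} (hκ0 : 0 < κ) (hκ : κ < 1) (hCR : 0 ≤ CR) (hr0 : 0 < r)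
    (hr8 : r ≤ 1 / 2) (hr : CR * (3 * r) ≤ 1 / 2) (hC₀ : 0 ≤ C₀) (hCH : 0 ≤ CH) (M : ℕ → ℝ)
    (hM : ∀ k, 0 ≤ M k) : ∃ K : ℝ, 0 ≤ K ∧ ∀ (f g : E2 → E2) (R Rs : E2 →L[ℝ] E2) (q c₀ : E2)
      (s : ℝ), ContDiffOn ℝ ∞ f (ball 0 1) → ContDiffOn ℝ ∞ g (ball 0 1) →
      (∀ k, ∀ y ∈ ball (0 : E2) 1, ‖iteratedFDeriv ℝ k f y‖ ≤ M k) →
      (∀ k, ∀ y ∈ ball (0 : E2) 1, ‖iteratedFDeriv ℝ k g y‖ ≤ M k) →
      ‖R‖ ≤ CR → ‖Rs‖ ≤ CR → q ∈ ball (0 : E2) 1 → 0 < s → s ≤ 1 → 2 * CH * s ≤ r →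
      (∀ p ∈ ball (0 : E2) 1 ∩ ball q (3 * r), ‖p‖ < 1 - CH * s →
        ‖ZZ f g R Rs q p - c₀‖ ≤ C₀ * s) →
      ‖fderiv ℝ f q - Rs ∘L fderiv ℝ g 0 ∘L R‖ ≤ K * s ^ κ := by
  obtain ⟨K, hK, H⟩ := interp_ball (κ := κ) (r := r) (C₀ := C₀) hκ0 hκ hr0 hC₀
    (fun k => M k + CR * (M k * CR ^ k) + C₀)
  have hM2 : 0 ≤ M 2 + CR * (M 2 * CR ^ 2) := by
    have := hM 2
    positivity
  refine ⟨K + (M 2 + CR * (M 2 * CR ^ 2)) * (2 * CH), by positivity, ?_⟩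
  intro f g R Rs q c₀ s hf hg hfM hgM hR hRs hq hs hs1 hsr hZ
  set D : Set E2 := ball (0 : E2) 1 ∩ ball q (3 * r) with hD
  have hqn : ‖q‖ < 1 := by simpa using hq
  set a : ℝ := 2 * CH * s with ha
  have ha0 : 0 ≤ a := by positivity
  have ha1 : a ≤ 1 / 2 := hsr.trans hr8
  set q' : E2 := (1 - a) • q with hq'
  have hq'n : ‖q'‖ = (1 - a) * ‖q‖ := by
    rw [hq', norm_smul, Real.norm_eq_abs, abs_of_nonneg (by linarith)]
  have hqq' : ‖q - q'‖ ≤ a := by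
    have : q - q' = a • q := by rw [hq', sub_smul, one_smul, sub_sub_cancel]
    rw [this, norm_smul, Real.norm_eq_abs, abs_of_nonneg ha0]
    exact mul_le_of_le_one_right ha0 hqn.le
  set z : E2 := (1 - r) • q' with hz
  have hzn : ‖z‖ = (1 - r) * ‖q'‖ := by
    rw [hz, norm_smul, Real.norm_eq_abs, abs_of_nonneg (by linarith)]
  have hq'1 : ‖q'‖ ≤ 1 - a := by
    rw [hq'n]
    exact mul_le_of_le_one_right (by linarith) hqn.le
  have hq'lt : ‖q'‖ < 1 := by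
    rw [hq'n]
    have : (1 - a) * ‖q‖ ≤ 1 * ‖q‖ := mul_le_mul_of_nonneg_right (by linarith) (norm_nonneg _)
    linarith
  have hzq' : ‖q' - z‖ < r := by
    have : q' - z = r • q' := by rw [hz, sub_smul, one_smul, sub_sub_cancel]
    rw [this, norm_smul, Real.norm_eq_abs, abs_of_nonneg hr0.le]
    calc r * ‖q'‖ < r * 1 := mul_lt_mul_of_pos_left hq'lt hr0
      _ = r := mul_one r
  have hball : ∀ p ∈ ball z r, ‖p‖ < 1 - CH * s ∧ p ∈ D := by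
    intro p hp
    rw [mem_ball, dist_eq_norm] at hp
    have h1 : ‖p‖ < ‖z‖ + r := by
      calc ‖p‖ = ‖(p - z) + z‖ := by rw [sub_add_cancel]
        _ ≤ ‖p - z‖ + ‖z‖ := norm_add_le _ _
        _ < r + ‖z‖ := by linarith
        _ = _ := add_comm _ _
    have h2 : ‖z‖ ≤ (1 - r) * (1 - a) := by
      rw [hzn]
      exact mul_le_mul_of_nonneg_left hq'1 (by linarith)
    have h3 : ‖p‖ < 1 - CH * s := by
      have h4 : (1 - r) * (1 - a) + r = 1 - a + r * a := by ring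
      have h5 : r * a ≤ 1 / 2 * a := mul_le_mul_of_nonneg_right hr8 ha0
      have h6 : a = 2 * (CH * s) := by rw [ha]; ring
      linarith
    refine ⟨h3, ?_, ?_⟩
    · rw [mem_ball_zero_iff]
      have h4 : ‖p‖ < ‖z‖ + r := by
        calc ‖p‖ = ‖(p - z) + z‖ := by rw [sub_add_cancel]
          _ ≤ ‖p - z‖ + ‖z‖ := norm_add_le _ _
          _ < r + ‖z‖ := by linarith
          _ = _ := add_comm _ _
      have h5 : ‖z‖ ≤ (1 - r) * 1 := by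
        rw [hzn]
        exact mul_le_mul_of_nonneg_left hq'lt.le (by linarith)
      linarith
    · rw [mem_ball, dist_eq_norm]
      calc ‖p - q‖ = ‖(p - z) + (z - q') + (q' - q)‖ := by congr 1; abel
        _ ≤ ‖(p - z) + (z - q')‖ + ‖q' - q‖ := norm_add_le _ _
        _ ≤ ‖p - z‖ + ‖z - q'‖ + ‖q' - q‖ := by
            have := norm_add_le (p - z) (z - q')
            linarith
        _ < r + r + r := by
            rw [norm_sub_rev z q', norm_sub_rev q' q]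
            linarith
        _ = 3 * r := by ring
  have hDo : IsOpen D := isOpen_ball.inter isOpen_ball
  have hDc : Convex ℝ D := (convex_ball _ _).inter (convex_ball _ _)
  have hZs : ContDiffOn ℝ ∞ (ZZ f g R Rs q) D := ZZ_smooth hCR hR hr hf hg
  have hZb : ∀ (k : ℕ), ∀ p ∈ D, ‖iteratedFDeriv ℝ k (ZZ f g R Rs q) p‖ ≤
      M k + CR * (M k * CR ^ k) := fun k p hp => ZZ_bound hM hCR hR hRs hr hf hg hfM hgM k hp
  have hfd : ∀ p : E2, fderiv ℝ (fun p => ZZ f g R Rs q p - c₀) p = fderiv ℝ (ZZ f g R Rs q) p :=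
    fun p => by rw [fderiv_sub_const]
  -- the estimate at `q'`
  have h1 : ‖fderiv ℝ (ZZ f g R Rs q) q'‖ ≤ K * s ^ κ := by
    rw [← hfd]
    refine H (fun p => ZZ f g R Rs q p - c₀) z s
      ((hZs.mono fun p hp => (hball p hp).2).sub contDiffOn_const) ?_ hs ?_ q' ?_
    · intro k p hp
      rcases Nat.eq_zero_or_pos k with rfl | hk
      · rw [norm_iteratedFDeriv_zero]
        have h2 := hZ p (hball p hp).2 (hball p hp).1
        have h3 : C₀ * s ≤ C₀ := mul_le_of_le_one_right hC₀ hs1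
        have h4 : 0 ≤ M 0 + CR * (M 0 * CR ^ 0) := by
          have := hM 0
          positivity
        linarith
      · rw [N3.H469.norm_iter_sub_const _ _ hk]
        have := hZb k p (hball p hp).2
        linarith
    · intro p hp
      exact hZ p (hball p hp).2 (hball p hp).1
    · rw [mem_ball, dist_eq_norm]
      exact hzq'
  -- from `q'` to `q`
  have hqD : q ∈ D := ⟨hq, mem_ball_self (by positivity)⟩
  have hq'D : q' ∈ D := by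
    refine (hball q' ?_).2
    rw [mem_ball, dist_eq_norm]
    exact hzq'
  have hd2 : ∀ p ∈ D, DifferentiableAt ℝ (fderiv ℝ (ZZ f g R Rs q)) p := fun p hp =>
    ((hZs.contDiffAt (hDo.mem_nhds hp)).fderiv_right (m := ∞) (by simp)).differentiableAt (by simp)
  have h2 : ‖fderiv ℝ (ZZ f g R Rs q) q - fderiv ℝ (ZZ f g R Rs q) q'‖ ≤
      (M 2 + CR * (M 2 * CR ^ 2)) * ‖q - q'‖ := by
    refine hDc.norm_image_sub_le_of_norm_fderiv_le (𝕜 := ℝ) hd2 (fun p hp => ?_) hq'D hqD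
    rw [← norm_iteratedFDeriv_one, norm_iteratedFDeriv_fderiv]
    exact hZb 2 p hp
  have hsκ : s ≤ s ^ κ := by
    calc s = s ^ (1 : ℝ) := (Real.rpow_one s).symm
      _ ≤ s ^ κ := Real.rpow_le_rpow_of_exponent_ge hs hs1 hκ.le
  have h3 : ‖fderiv ℝ (ZZ f g R Rs q) q‖ ≤ K * s ^ κ + (M 2 + CR * (M 2 * CR ^ 2)) *
      (2 * CH) * s ^ κ := by
    calc ‖fderiv ℝ (ZZ f g R Rs q) q‖ = ‖(fderiv ℝ (ZZ f g R Rs q) q -
          fderiv ℝ (ZZ f g R Rs q) q') + fderiv ℝ (ZZ f g R Rs q) q'‖ := by rw [sub_add_cancel]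
      _ ≤ (M 2 + CR * (M 2 * CR ^ 2)) * ‖q - q'‖ + K * s ^ κ :=
          (norm_add_le _ _).trans (add_le_add h2 h1)
      _ ≤ (M 2 + CR * (M 2 * CR ^ 2)) * (2 * CH * s ^ κ) + K * s ^ κ := by
          have h5 : ‖q - q'‖ ≤ 2 * CH * s ^ κ :=
            hqq'.trans (mul_le_mul_of_nonneg_left hsκ (by positivity))
          have := mul_le_mul_of_nonneg_left h5 hM2
          linarith
      _ = _ := by ring
  rw [← ZZ_fderiv hf hg hq, add_mul]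
  exact h3

/-! ### the theorem -/

theorem Nr.ne_ep {P : Pic L V} {ε : ℝ} {x : X} {ξ : B} (h : P.Nr ε x ξ) : ξ ≠ L.ep x :=
  H790.ne_ep h

/-- the comparison at one point, for positive exponents -/
theorem t3_quant_aux {ε₀ : ℝ} (h0 : 0 < ε₀) (h2a : P.T2a ε₀) (h2h : P.T2h ε₀)
    (hHq : HqC P ε₀) (hB : BaseCh P ε₀)
    (hz : ∀ κ : ℝ, κ < 1 → ∃ C, ∀ x ξ, P.Nr ε₀ x ξ → DifferentiableAt ℝ (P.hh x ξ) 0 ∧
      ‖fderiv ℝ (P.hh x ξ) 0 - fderiv ℝ (P.Aq x ξ) 0‖ ≤ C * ‖P.gr x ξ 0‖ ^ κ) :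
    ∃ ε₁ : ℝ, 0 < ε₁ ∧ ε₁ ≤ ε₀ ∧ ε₁ ≤ 1 ∧ ∀ κ : ℝ, 0 < κ → κ < 1 → ∃ C : ℝ, 0 ≤ C ∧ ∀ x ξ,
      P.Nr ε₁ x ξ → ∀ q ∈ ball (0 : E2) 1,
      ‖fderiv ℝ (P.hh x ξ) q - fderiv ℝ (P.Aq x ξ) q‖ ≤ C * ‖P.gr x ξ 0‖ ^ κ := by
  obtain ⟨εa, ha0, haε, ha1, M, hM0, hM⟩ := aq_bd P h0 h2a
  obtain ⟨εl, Cl, hl0, hCl, hl⟩ := lin_bd P
  obtain ⟨CH', hCH'⟩ := hHq
  obtain ⟨CB', hCB'⟩ := hB
  obtain ⟨CT, hT2⟩ := h2h
  set CH : ℝ := |CH'| + 1 with hCH
  set CB : ℝ := |CB'| + 1 with hCB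
  have hCH1 : 1 ≤ CH := by rw [hCH]; linarith [abs_nonneg CH']
  have hCB1 : 1 ≤ CB := by rw [hCB]; linarith [abs_nonneg CB']
  have hCH0 : 0 < CH := by linarith
  have hCB0 : 0 < CB := by linarith
  set CR : ℝ := Cl + 1 with hCR
  have hCR0 : 0 < CR := by rw [hCR]; linarith
  set r : ℝ := 1 / (6 * CR + 2) with hr
  have hr0 : 0 < r := by rw [hr]; positivity
  have hr8 : r ≤ 1 / 2 := by
    rw [hr]
    exact one_div_le_one_div_of_le (by norm_num) (by linarith)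
  have hr3 : CR * (3 * r) ≤ 1 / 2 := by
    rw [hr, mul_one_div, ← mul_div_assoc, div_le_iff₀ (by positivity)]
    linarith
  set s₀ : ℝ := min (r / (2 * CH)) (min (εa / CB) (min (1 / (4 * (CH * CB))) 1)) with hs₀
  have hs₀0 : 0 < s₀ := by
    rw [hs₀]
    refine lt_min (by positivity) (lt_min (by positivity) (lt_min (by positivity) one_pos))
  have hs1 : s₀ ≤ r / (2 * CH) := min_le_left _ _
  have hs2 : s₀ ≤ εa / CB := (min_le_right _ _).trans (min_le_left _ _)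
  have hs3 : s₀ ≤ 1 / (4 * (CH * CB)) :=
    (min_le_right _ _).trans ((min_le_right _ _).trans (min_le_left _ _))
  have hs4 : s₀ ≤ 1 := (min_le_right _ _).trans ((min_le_right _ _).trans (min_le_right _ _))
  have hs1' : 2 * CH * s₀ ≤ r := by
    rw [le_div_iff₀ (by positivity)] at hs1
    linarith
  have hs2' : CB * s₀ ≤ εa := by
    rw [le_div_iff₀ hCB0] at hs2
    linarith
  have hs3' : CH * (CB * s₀) ≤ 1 / 4 := by
    rw [le_div_iff₀ (by positivity)] at hs3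
    have : CH * (CB * s₀) = s₀ * (4 * (CH * CB)) / 4 := by ring
    rw [this]
    linarith
  refine ⟨min εa (min εl s₀), lt_min ha0 (lt_min hl0 hs₀0), (min_le_left _ _).trans haε,
    (min_le_left _ _).trans ha1, ?_⟩
  intro κ hκ0 hκ
  obtain ⟨Cz', hCz'⟩ := hz κ hκ
  set Cz : ℝ := |Cz'| with hCz
  have hCz0 : 0 ≤ Cz := abs_nonneg _
  set C₀ : ℝ := M 1 * CH + CR * (M 1 * (CH * CB)) with hC₀
  have hM1 := hM0 1
  have hC₀0 : 0 ≤ C₀ := by rw [hC₀]; positivity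
  obtain ⟨K, hK, H⟩ := cmp_le hκ0 hκ hCR0.le hr0 hr8 hr3 hC₀0 hCH0.le M hM0
  refine ⟨K + CR * (Cz * CB ^ κ) * CR, by positivity, ?_⟩
  intro x ξ hN q hq
  have hNa : P.Nr εa x ξ := Nr.mono hN (min_le_left _ _)
  have hN0 : P.Nr ε₀ x ξ := Nr.mono hNa haε
  have hNl : P.Nr εl x ξ := Nr.mono hN ((min_le_right _ _).trans (min_le_left _ _))
  have hqc : q ∈ closedBall (0 : E2) 1 := ball_subset_closedBall hq
  obtain ⟨hq1, hR, hRs⟩ := hl x ξ hNl q hqc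
  have hx : ξ ≠ L.ep x := Nr.ne_ep hN
  set y : X := trq P x q with hy
  have hyne : ξ ≠ L.ep y := ne_ep_trq hq1
  set R : E2 →L[ℝ] E2 := (P.Af.lin x y : E2 →L[ℝ] E2) with hRd
  set Rs : E2 →L[ℝ] E2 := ((P.Af.lin (L.hol ξ x) (L.hol ξ y)).symm : E2 →L[ℝ] E2) with hRsd
  have hR' : ‖R‖ ≤ CR := hR.trans (by rw [hCR]; linarith)
  have hRs' : ‖Rs‖ ≤ CR := hRs.trans (by rw [hCR]; linarith)
  set t : ℝ := ‖P.gr x ξ 0‖ with ht
  have htn : 0 ≤ t := norm_nonneg _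
  have ht0 : t ≤ s₀ := hN.2.trans ((min_le_right _ _).trans (min_le_right _ _))
  obtain ⟨hy1, hy2⟩ := hCB' x ξ hN0 q hq
  set ty : ℝ := ‖P.gr y ξ 0‖ with hty
  have hty1 : ty ≤ CB * t := by
    refine hy2.trans (mul_le_mul_of_nonneg_right ?_ htn)
    rw [hCB]
    linarith [le_abs_self CB']
  have hNya : P.Nr εa y ξ := ⟨hy1, hty1.trans ((mul_le_mul_of_nonneg_left ht0 hCB0.le).trans hs2')⟩
  have hNy0 : P.Nr ε₀ y ξ := Nr.mono hNya haε
  obtain ⟨hxs, hxM⟩ := hM x ξ hNa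
  obtain ⟨hys, hyM⟩ := hM y ξ hNya
  have hptx : ∀ p ∈ ball (0 : E2) 1, P.Af.pt x p ≠ ξ := fun p hp =>
    (hl x ξ hNl p (ball_subset_closedBall hp)).1
  -- Lipschitz bounds
  have hLip : ∀ {x' : X}, P.Nr εa x' ξ → ∀ p ∈ ball (0 : E2) 1, ∀ p' ∈ ball (0 : E2) 1,
      ‖P.Aq x' ξ p' - P.Aq x' ξ p‖ ≤ M 1 * ‖p' - p‖ := by
    intro x' hN' p hp p' hp'
    obtain ⟨h1, h2⟩ := hM x' ξ hN'
    refine (convex_ball (0 : E2) 1).norm_image_sub_le_of_norm_fderiv_le (𝕜 := ℝ)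
      (fun w hw => (h1.contDiffAt (isOpen_ball.mem_nhds hw)).differentiableAt (by simp))
      (fun w hw => ?_) hp hp'
    rw [← norm_iteratedFDeriv_one]
    exact h2 1 w hw
  have hHqx : ∀ {x' : X}, P.Nr ε₀ x' ξ → ∀ p ∈ ball (0 : E2) 1,
      ‖P.Hq x' ξ p - p‖ ≤ CH * ‖P.gr x' ξ 0‖ := by
    intro x' hN' p hp
    refine (hCH' x' ξ hN' p hp).trans (mul_le_mul_of_nonneg_right ?_ (norm_nonneg _))
    rw [hCH]
    linarith [le_abs_self CH']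
  -- holonomy versus chart
  have hAh : ∀ {x' : X}, P.Nr εa x' ξ → ∀ p ∈ ball (0 : E2) 1,
      ‖p‖ + CH * ‖P.gr x' ξ 0‖ < 1 → ‖P.Aq x' ξ p - P.hh x' ξ p‖ ≤
        M 1 * (CH * ‖P.gr x' ξ 0‖) := by
    intro x' hN' p hp hp1
    have hN'0 : P.Nr ε₀ x' ξ := Nr.mono hN' haε
    have h1 := (hT2 x' ξ hN'0 p hp).2.2.1
    have h2 := hHqx hN'0 p hp
    have h3 : P.Hq x' ξ p ∈ ball (0 : E2) 1 := by
      rw [mem_ball_zero_iff]
      calc ‖P.Hq x' ξ p‖ = ‖(P.Hq x' ξ p - p) + p‖ := by rw [sub_add_cancel]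
        _ ≤ ‖P.Hq x' ξ p - p‖ + ‖p‖ := norm_add_le _ _
        _ < 1 := by linarith
    rw [h1]
    refine (hLip hN' _ h3 _ hp).trans (mul_le_mul_of_nonneg_left ?_ hM1)
    rw [norm_sub_rev]
    exact h2
  -- the derivative of the holonomy at `q`
  obtain ⟨hdy, hzy⟩ := hCz' y ξ hNy0
  have hder : fderiv ℝ (P.hh x ξ) q = Rs ∘L fderiv ℝ (P.hh y ξ) 0 ∘L R := by
    have e1 : P.hh x ξ =ᶠ[𝓝 q] fun p => Rs (P.hh y ξ (R (p - q))) + P.hh x ξ q := by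
      filter_upwards [isOpen_ball.mem_nhds hq] with p hp
      exact hh_trq hx hq1 (hptx p hp)
    have h2 : HasFDerivAt (P.hh y ξ) (fderiv ℝ (P.hh y ξ) 0) (R (q - q)) := by
      rw [sub_self, map_zero]
      exact hdy.hasFDerivAt
    have h3 : HasFDerivAt (fun p : E2 => R (p - q)) R q :=
      (R.hasFDerivAt.comp q ((hasFDerivAt_id (𝕜 := ℝ) q).sub_const q)).congr_fderiv
        (ContinuousLinearMap.comp_id R)
    have h4 : HasFDerivAt (fun p : E2 => Rs (P.hh y ξ (R (p - q))) + P.hh x ξ q)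
        (Rs ∘L fderiv ℝ (P.hh y ξ) 0 ∘L R) q :=
      (Rs.hasFDerivAt.comp q (h2.comp q h3)).add_const _
    exact (h4.congr_of_eventuallyEq e1).fderiv
  refine lim_le hκ0 htn hs₀0 ht0 fun s hts hs hss₀ => ?_
  have hs1 : s ≤ 1 := hss₀.trans hs4
  have hsκ : 0 ≤ s ^ κ := Real.rpow_nonneg hs.le _
  have h1 : ‖fderiv ℝ (P.Aq x ξ) q - Rs ∘L fderiv ℝ (P.Aq y ξ) 0 ∘L R‖ ≤ K * s ^ κ := by
    refine H (P.Aq x ξ) (P.Aq y ξ) R Rs q (P.hh x ξ q) s hxs hys hxM hyM hR' hRs' hq hs hs1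
      ((mul_le_mul_of_nonneg_left hss₀ (by positivity)).trans hs1') ?_
    intro p hp hpn
    have hRp := mem_R hCR0.le hR' hr3 hp.2
    have hRpb : R (p - q) ∈ ball (0 : E2) 1 := by
      rw [mem_ball_zero_iff]
      linarith
    have hCHt : CH * t ≤ CH * s := mul_le_mul_of_nonneg_left hts hCH0.le
    have hp1 : ‖p‖ < 1 := by simpa using hp.1
    have e2 : P.hh x ξ p = Rs (P.hh y ξ (R (p - q))) + P.hh x ξ q :=
      hh_trq hx hq1 (hptx p hp.1)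
    have h5 : ‖P.Aq x ξ p - P.hh x ξ p‖ ≤ M 1 * (CH * s) :=
      (hAh hNa p hp.1 (by linarith)).trans (mul_le_mul_of_nonneg_left hCHt hM1)
    have htys : ty ≤ CB * s := hty1.trans (mul_le_mul_of_nonneg_left hts hCB0.le)
    have h6 : ‖P.Aq y ξ (R (p - q)) - P.hh y ξ (R (p - q))‖ ≤ M 1 * (CH * (CB * s)) := by
      have h7 : CH * ty ≤ CH * (CB * s) := mul_le_mul_of_nonneg_left htys hCH0.le
      have h8 : CH * (CB * s) ≤ 1 / 4 :=
        (mul_le_mul_of_nonneg_left (mul_le_mul_of_nonneg_left hss₀ hCB0.le) hCH0.le).trans hs3'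
      refine (hAh hNya (R (p - q)) hRpb ?_).trans (mul_le_mul_of_nonneg_left h7 hM1)
      linarith
    have e3 : ZZ (P.Aq x ξ) (P.Aq y ξ) R Rs q p - P.hh x ξ q =
        (P.Aq x ξ p - P.hh x ξ p) - Rs (P.Aq y ξ (R (p - q)) - P.hh y ξ (R (p - q))) := by
      have e5 : Rs (P.Aq y ξ (R (p - q)) - P.hh y ξ (R (p - q))) =
          Rs (P.Aq y ξ (R (p - q))) - Rs (P.hh y ξ (R (p - q))) := map_sub Rs _ _
      rw [e5, e2]
      show P.Aq x ξ p - Rs (P.Aq y ξ (R (p - q))) - P.hh x ξ q = _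
      abel
    rw [e3]
    calc ‖(P.Aq x ξ p - P.hh x ξ p) - Rs (P.Aq y ξ (R (p - q)) - P.hh y ξ (R (p - q)))‖
        ≤ ‖P.Aq x ξ p - P.hh x ξ p‖ +
          ‖Rs (P.Aq y ξ (R (p - q)) - P.hh y ξ (R (p - q)))‖ := norm_sub_le _ _
      _ ≤ M 1 * (CH * s) + CR * (M 1 * (CH * (CB * s))) := by
          refine add_le_add h5 ((Rs.le_opNorm _).trans ?_)
          exact mul_le_mul hRs' h6 (norm_nonneg _) hCR0.le
      _ = C₀ * s := by rw [hC₀]; ring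
  have h2 : ‖Rs ∘L (fderiv ℝ (P.hh y ξ) 0 - fderiv ℝ (P.Aq y ξ) 0) ∘L R‖ ≤
      CR * (Cz * CB ^ κ) * CR * s ^ κ := by
    have h5 : ‖fderiv ℝ (P.hh y ξ) 0 - fderiv ℝ (P.Aq y ξ) 0‖ ≤ Cz * (CB ^ κ * s ^ κ) := by
      refine hzy.trans (mul_le_mul (le_abs_self _) ?_ (Real.rpow_nonneg (norm_nonneg _) _) hCz0)
      rw [← Real.mul_rpow hCB0.le hs.le]
      exact Real.rpow_le_rpow (norm_nonneg _)
        (hty1.trans (mul_le_mul_of_nonneg_left hts hCB0.le)) hκ0.le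
    calc ‖Rs ∘L (fderiv ℝ (P.hh y ξ) 0 - fderiv ℝ (P.Aq y ξ) 0) ∘L R‖
        ≤ ‖Rs‖ * (‖fderiv ℝ (P.hh y ξ) 0 - fderiv ℝ (P.Aq y ξ) 0‖ * ‖R‖) :=
          (ContinuousLinearMap.opNorm_comp_le _ _).trans
            (mul_le_mul_of_nonneg_left (ContinuousLinearMap.opNorm_comp_le _ _) (norm_nonneg _))
      _ ≤ CR * ((Cz * (CB ^ κ * s ^ κ)) * CR) := by
          refine mul_le_mul hRs' (mul_le_mul h5 hR' (norm_nonneg _) (by positivity))
            (by positivity) hCR0.le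
      _ = _ := by ring
  have e4 : fderiv ℝ (P.hh x ξ) q - fderiv ℝ (P.Aq x ξ) q =
      Rs ∘L (fderiv ℝ (P.hh y ξ) 0 - fderiv ℝ (P.Aq y ξ) 0) ∘L R -
        (fderiv ℝ (P.Aq x ξ) q - Rs ∘L fderiv ℝ (P.Aq y ξ) 0 ∘L R) := by
    rw [hder, ContinuousLinearMap.sub_comp, ContinuousLinearMap.comp_sub]
    abel
  rw [e4, add_mul]
  refine (norm_sub_le _ _).trans ?_
  linarith

/-- **(Q)** from the centre to the unit ball -/
theorem t3_quant {ε₀ : ℝ} (h0 : 0 < ε₀) (hR : P.RateP) (h2a : P.T2a ε₀) (h2h : P.T2h ε₀)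
    (hHq : HqC P ε₀) (hB : BaseCh P ε₀)
    (hz : ∀ κ : ℝ, κ < 1 → ∃ C, ∀ x ξ, P.Nr ε₀ x ξ → DifferentiableAt ℝ (P.hh x ξ) 0 ∧
      ‖fderiv ℝ (P.hh x ξ) 0 - fderiv ℝ (P.Aq x ξ) 0‖ ≤ C * ‖P.gr x ξ 0‖ ^ κ) :
    ∃ ε₁ : ℝ, 0 < ε₁ ∧ ε₁ ≤ ε₀ ∧ ∀ κ : ℝ, κ < 1 → ∃ C, ∀ x ξ, P.Nr ε₁ x ξ →
      ∀ q ∈ ball (0 : E2) 1,
      ‖fderiv ℝ (P.hh x ξ) q - fderiv ℝ (P.Aq x ξ) q‖ ≤ C * ‖P.gr x ξ 0‖ ^ κ := by
  obtain ⟨ε₁, h1, h2, h3, H⟩ := t3_quant_aux P h0 h2a h2h hHq hB hz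
  refine ⟨ε₁, h1, h2, fun κ hκ => ?_⟩
  obtain ⟨C, hC, hK⟩ := H (max κ (1 / 2)) (lt_max_of_lt_right (by norm_num))
    (max_lt hκ (by norm_num))
  refine ⟨C, fun x ξ hN q hq => (hK x ξ hN q hq).trans (mul_le_mul_of_nonneg_left ?_ hC)⟩
  have ht : ‖P.gr x ξ 0‖ ≤ 1 := hN.2.trans h3
  rcases (norm_nonneg (P.gr x ξ 0)).eq_or_lt with h4 | h4
  · rw [← h4, Real.zero_rpow (lt_max_of_lt_right (by norm_num : (0 : ℝ) < 1 / 2)).ne']
    exact Real.rpow_nonneg le_rfl _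
  · exact Real.rpow_le_rpow_of_exponent_ge h4 ht (le_max_left _ _)

end Vale.Agent.P207.N4.V.H988

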