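import Vale.Agent.P207.N5.H988.T3Z
import Vale.Agent.P207.N5.H988.T3Q
import Vale.Agent.P207.H832.T3.T3b

/-!
# P207, row T3 for `b < 2 a`: the instance of 832's `T3In2` over `Pic`, and `P.T3`
-/

set_option maxSynthPendingDepth 3
set_option linter.all false

open Set Filter Topology Metric MeasureTheory
open scoped ContDiff

noncomputable section

namespace Vale.Agent.P207.N4.V.H988

open Vale.Agent.P207.N3
open Vale.Agent.P207.H761 (inter' invertible_of_close norm_le_of_close taylor2)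
open Vale.Agent.P207.H832.T3 (T3In2)
open H761 (Bas Mx ne_ep hh_flow norm_symm_le nr_mono Mx_coe a_aff' ch_flow exists_nr exists_bas
  AngF BaseCh HqC tr)

variable [Dim]

variable {Γ X B : Type} [Group Γ] [MetricSpace X] [ProperSpace X] [MulAction Γ X]
  [IsIsometricSMul Γ X] [TopologicalSpace B] [CompactSpace B] [T2Space B] [MulAction Γ B]
  [ContinuousConstSMul Γ B] {L : Leaf Γ X B} [MeasurableSpace B] [BorelSpace B] {V : Type}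
  [NormedAddCommGroup V] [NormedSpace ℝ V] [FiniteDimensional ℝ V]

/-- the data of the instance, `b < (1 + κ) a` -/
structure Gd2 (P : Pic L V) (ρ C ρ' κ K : ℝ) : Prop extends Bas P ρ C where
  κ_pos : 0 < κ
  κ_lt : κ < 1
  pin : P.Ra.b < P.Ra.a + κ * P.Ra.a
  base : ∀ x ξ, P.Nr ρ' x ξ → ∀ q ∈ ball (0 : E2) 1, ∀ n : ℕ,
    P.Nr ρ (L.φ n (tr L x (P.Af.pt x q))) ξ
  self : ∀ x ξ, P.Nr ρ' x ξ → ∀ n : ℕ, P.Nr ρ (L.φ n x) ξ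
  far : ∀ x ξ, ξ ≠ L.ep x → ∃ n : ℕ, P.Nr ρ' (L.φ n x) ξ
  M_cont : ∀ ξ v, ContinuousOn (fun x => fderiv ℝ (P.Aq x ξ) 0 v) {x | P.Nr ρ x ξ}
  K_nonneg : 0 ≤ K
  F2 : ∀ x ξ, P.Nr ρ x ξ → P.Nr ρ (L.φ 1 x) ξ → ∀ v,
    ‖P.Af.P 1 (L.hol ξ x) (fderiv ℝ (P.Aq x ξ) 0 v) -
      fderiv ℝ (P.Aq (L.φ 1 x) ξ) 0 (P.Af.P 1 x v)‖ ≤ K * ‖P.gr x ξ 0‖ ^ κ * ‖v‖
  F3 : ∀ x ξ, P.Nr ρ x ξ → P.Nr ρ (L.φ 1 x) ξ → ∀ w, ‖P.Af.P 1 x w‖ ≤ 1 →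
      ‖((P.Af.P 1 (L.hol ξ x)).symm (Ft P (L.φ 1 x) ξ (P.Af.P 1 x w)) - Ft P x ξ w) -
        ((P.Af.P 1 (L.hol ξ x)).symm (Ft P (L.φ 1 x) ξ 0) - Ft P x ξ 0) -
        ((P.Af.P 1 (L.hol ξ x)).symm (Mx P (L.φ 1 x) ξ (P.Af.P 1 x w)) - Mx P x ξ w)‖ ≤
        K * ‖P.gr x ξ 0‖ ^ κ * ‖w‖ ^ 2

variable {P : Pic L V} {ρ C ρ' κ K : ℝ}

namespace Gd2

variable (S : Gd2 P ρ C ρ' κ K)
include S

theorem CC_ge : 16 ≤ 16 * C ^ 2 + 2 * K ∧ C ≤ 16 * C ^ 2 + 2 * K ∧ K ≤ 16 * C ^ 2 + 2 * K ∧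
    4 * C ≤ 16 * C ^ 2 + 2 * K := by
  have h1 := S.C_ge
  have h2 := S.K_nonneg
  refine ⟨?_, ?_, ?_, ?_⟩ <;> nlinarith

theorem hMc (ξ : B) (v : E2) : ContinuousOn (fun x => Mx P x ξ v) {x | P.Nr ρ x ξ} :=
  (S.M_cont ξ v).congr fun _ hx => S.toBas.Mx_apply hx v

theorem hMic (ξ : B) (v : E2) : ContinuousOn (fun x => (Mx P x ξ).symm v) {x | P.Nr ρ x ξ} := by
  intro x₀ hx₀
  have h1 := S.hMc ξ ((Mx P x₀ ξ).symm v) x₀ hx₀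
  have h2 : Tendsto (fun x => 2 * ‖Mx P x₀ ξ ((Mx P x₀ ξ).symm v) -
      Mx P x ξ ((Mx P x₀ ξ).symm v)‖) (𝓝[{x | P.Nr ρ x ξ}] x₀) (𝓝 (2 * ‖Mx P x₀ ξ
      ((Mx P x₀ ξ).symm v) - Mx P x₀ ξ ((Mx P x₀ ξ).symm v)‖)) :=
    ((tendsto_const_nhds.sub h1).norm).const_mul 2
  rw [sub_self, norm_zero, mul_zero] at h2
  rw [ContinuousWithinAt, tendsto_iff_norm_sub_tendsto_zero]
  refine squeeze_zero' (Eventually.of_forall fun _ => norm_nonneg _) ?_ h2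
  filter_upwards [self_mem_nhdsWithin] with x hx
  have e : (Mx P x ξ).symm v - (Mx P x₀ ξ).symm v = (Mx P x ξ).symm
      (Mx P x₀ ξ ((Mx P x₀ ξ).symm v) - Mx P x ξ ((Mx P x₀ ξ).symm v)) := by
    rw [map_sub, ContinuousLinearEquiv.apply_symm_apply, ContinuousLinearEquiv.symm_apply_apply]
  rw [e]
  exact S.toBas.Mx_inv hx _

theorem hF1 {x : X} {ξ : B} (h : P.Nr ρ x ξ) {w : E2} (hw : ‖w‖ ≤ 1) :
    ‖(2 : ℝ) • P.Af.ch (L.hol ξ x) (P.Af.pt x ((1 / 2 : ℝ) • w)) - Ft P x ξ w‖ ≤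
      (16 * C ^ 2 + 2 * K) * ‖P.gr x ξ 0‖ ^ κ := by
  have h1 := F1' S.toBas h hw
  have ht : ‖P.gr x ξ 0‖ ≤ ‖P.gr x ξ 0‖ ^ κ := by
    have h2 := Real.rpow_le_rpow_of_exponent_ge' (norm_nonneg _) (h.2.trans S.ρ_le) S.κ_pos.le
      S.κ_lt.le
    rwa [Real.rpow_one] at h2
  have hC := S.C_ge
  refine h1.trans (mul_le_mul S.CC_ge.2.2.2 ht (norm_nonneg _) ?_)
  linarith [S.CC_ge.1]

theorem hF2 {x : X} {ξ : B} (h : P.Nr ρ x ξ) (h' : P.Nr ρ (L.φ 1 x) ξ) (v : E2) :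
    ‖(Mx P (L.φ 1 x) ξ).symm (P.Af.P 1 (L.hol ξ x) (Mx P x ξ v)) - P.Af.P 1 x v‖ ≤
      (16 * C ^ 2 + 2 * K) * ‖P.gr x ξ 0‖ ^ κ * ‖v‖ := by
  have h1 := S.F2 x ξ h h' v
  rw [← S.toBas.Mx_apply h, ← S.toBas.Mx_apply h'] at h1
  have e : (Mx P (L.φ 1 x) ξ).symm (P.Af.P 1 (L.hol ξ x) (Mx P x ξ v)) - P.Af.P 1 x v =
      (Mx P (L.φ 1 x) ξ).symm (P.Af.P 1 (L.hol ξ x) (Mx P x ξ v) -
        Mx P (L.φ 1 x) ξ (P.Af.P 1 x v)) := by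
    rw [map_sub, ContinuousLinearEquiv.symm_apply_apply]
  have hC : 0 ≤ C ^ 2 := sq_nonneg _
  have ht0 : 0 ≤ ‖P.gr x ξ 0‖ ^ κ := Real.rpow_nonneg (norm_nonneg _) _
  rw [e]
  refine (S.toBas.Mx_inv h' _).trans ?_
  calc _ ≤ 2 * (K * ‖P.gr x ξ 0‖ ^ κ * ‖v‖) := by linarith
    _ = 2 * K * (‖P.gr x ξ 0‖ ^ κ * ‖v‖) := by ring
    _ ≤ (16 * C ^ 2 + 2 * K) * (‖P.gr x ξ 0‖ ^ κ * ‖v‖) :=
        mul_le_mul_of_nonneg_right (by linarith) (by positivity)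
    _ = _ := by ring

theorem ht_iter {x : X} {ξ : B} (h : P.Nr ρ x ξ) (n : ℕ) :
    ‖P.gr (L.φ n x) ξ 0‖ ^ κ ≤
      (16 * C ^ 2 + 2 * K) * Real.exp (-(κ * P.Ra.a) * n) * ‖P.gr x ξ 0‖ ^ κ := by
  have h1 := (S.ang x ξ h.1 n (Nat.cast_nonneg n)).2
  have hC := S.toBas.C_pos
  have h2 := Real.rpow_le_rpow (norm_nonneg _) h1 S.κ_pos.le
  rw [Real.mul_rpow (by positivity) (norm_nonneg _), Real.mul_rpow hC.le (Real.exp_pos _).le,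
    ← Real.exp_mul] at h2
  refine h2.trans ?_
  have h3 : C ^ κ ≤ 16 * C ^ 2 + 2 * K := by
    have h4 := Real.rpow_le_rpow_of_exponent_le S.C_ge S.κ_lt.le
    rw [Real.rpow_one] at h4
    exact h4.trans S.CC_ge.2.1
  have e : -(P.Ra.a * n) * κ = -(κ * P.Ra.a) * n := by ring
  rw [e]
  have ht0 : 0 ≤ ‖P.gr x ξ 0‖ ^ κ := Real.rpow_nonneg (norm_nonneg _) _
  exact mul_le_mul_of_nonneg_right (mul_le_mul_of_nonneg_right h3 (Real.exp_pos _).le) ht0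

end Gd2

/-- the instance -/
def Gd2.toIn (S : Gd2 P ρ C ρ' κ K) : T3In2 X B E2 where
  φ := L.φ
  φ_zero := L.φ_zero
  φ_add := L.φ_add
  φ_cont t := L.φ_cont.comp (continuous_const.prodMk continuous_id)
  flip := L.flip
  flip_cont := L.flip_cont
  flip_flip := L.flip_flip
  em := L.em
  em_cont := L.em_cont
  em_φ := L.em_φ
  ep := L.ep
  ep_flip := L.ep_flip
  ep_φ := H761.ep_φ L
  em_ne_ep := L.em_ne_ep
  hol := L.hol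
  hol_em := L.hol_em
  hol_ep := L.hol_ep
  hol_φ := L.hol_φ
  hol_cont := L.hol_cont
  a x η := (2 : ℝ) • P.Af.ch x η
  ai x z := P.Af.pt x ((1 / 2 : ℝ) • z)
  ai_ne x z := P.Af.pt_ne x _
  a_ai x z := by
    rw [P.Af.ch_pt, smul_smul]
    norm_num
  ai_a x η h := by
    rw [smul_smul]
    norm_num
    exact P.Af.pt_ch x η h
  a_cont := (continuousOn_const (c := (2 : ℝ))).smul P.Af.ch_cont
  ai_cont := P.Af.pt_cont.comp (continuous_fst.prodMk (continuous_snd.const_smul (1 / 2 : ℝ)))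
  a_ep x := by rw [← P.Af.pt_zero, P.Af.ch_pt, smul_zero]
  a_aff := a_aff' P.Af
  D := P.Af.P
  a_φ t x η h := by rw [ch_flow P.Af t x h, map_smul]
  la := P.Ra.a
  lb := P.Ra.b
  la_pos := P.Ra.a_pos
  lb_pos := P.Ra.a_pos.trans_le P.Ra.a_le_b
  lc := κ * P.Ra.a
  lc_pos := mul_pos S.κ_pos P.Ra.a_pos
  pinch := S.pin
  C := 16 * C ^ 2 + 2 * K
  C_ge := by linarith [S.CC_ge.1]
  D_le t x v ht := by
    refine ((S.rate t ht x v).2).trans ?_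
    have h1 : 1 ≤ 16 * C ^ 2 + 2 * K := by linarith [S.CC_ge.1]
    exact mul_le_mul_of_nonneg_right (le_mul_of_one_le_left (Real.exp_pos _).le h1)
      (norm_nonneg _)
  D_inv t x v ht := by
    refine (norm_symm_le S.rate ht x v).trans ?_
    have h1 : 1 ≤ 16 * C ^ 2 + 2 * K := by linarith [S.CC_ge.1]
    rw [neg_mul]
    exact mul_le_mul_of_nonneg_right (le_mul_of_one_le_left (Real.exp_pos _).le h1)
      (norm_nonneg _)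
  T := 1
  T_pos := one_pos
  Cl := {p | P.Nr ρ p.1 p.2}
  t x ξ := ‖P.gr x ξ 0‖ ^ κ
  t_nonneg x ξ := Real.rpow_nonneg (norm_nonneg _) _
  t_bd x ξ h := by
    have h1 : P.Nr ρ x ξ := h
    have h2 := Real.rpow_le_one (norm_nonneg (P.gr x ξ 0)) (h1.2.trans S.ρ_le) S.κ_pos.le
    linarith [S.CC_ge.1]
  Cl_ne x ξ h := by
    have h1 : P.Nr ρ x ξ := h
    exact ne_ep h1.1
  Cl_far x ξ h w hw := by
    have h1 : P.Nr ρ x ξ := h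
    refine S.toBas.pt_ne h1 ?_
    rw [mem_ball_zero_iff, norm_smul, Real.norm_eq_abs, abs_of_pos (by norm_num)]
    linarith
  G := {p | P.Nr ρ' p.1 p.2}
  ρ := 2
  ρ_pos := two_pos
  G_cl x ξ h u hu n := by
    have h1 : P.Nr ρ' x ξ := h
    have h2 : (1 / 2 : ℝ) • u ∈ ball (0 : E2) 1 := by
      rw [mem_ball_zero_iff, norm_smul, Real.norm_eq_abs, abs_of_pos (by norm_num)]
      linarith
    have h3 := S.base x ξ h1 _ h2 n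
    rw [mul_one]
    exact h3
  t_iter x ξ h n := by
    have h1 : P.Nr ρ x ξ := by
      have := h 0
      rw [Nat.cast_zero, zero_mul, L.φ_zero] at this
      exact this
    rw [mul_one]
    exact S.ht_iter h1 n
  far x ξ h := by
    obtain ⟨n, hn⟩ := S.far x ξ h
    refine ⟨n, ?_⟩
    rw [mul_one]
    exact hn
  G_self x ξ h n := by
    rw [mul_one]
    exact S.self x ξ h n
  M := Mx P
  M_le x ξ h v := by
    have h1 : P.Nr ρ x ξ := h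
    exact (S.toBas.Mx_le h1 v).trans
      (mul_le_mul_of_nonneg_right (by linarith [S.CC_ge.1]) (norm_nonneg _))
  M_inv x ξ h v := by
    have h1 : P.Nr ρ x ξ := h
    exact (S.toBas.Mx_inv h1 v).trans
      (mul_le_mul_of_nonneg_right (by linarith [S.CC_ge.1]) (norm_nonneg _))
  M_cont := S.hMc
  Mi_cont := S.hMic
  F := Ft P
  F1 x ξ h w hw := S.hF1 h hw
  F0 x ξ h w hw := (F0 S.toBas h hw).trans
    (mul_le_mul_of_nonneg_right S.CC_ge.2.1 (sq_nonneg _))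
  F2 x ξ h h' v := S.hF2 h h' v
  F3 x ξ h h' w hw hw' := by
    refine (S.F3 x ξ h h' w hw').trans ?_
    exact mul_le_mul_of_nonneg_right (mul_le_mul_of_nonneg_right S.CC_ge.2.2.1
      (Real.rpow_nonneg (norm_nonneg _) _)) (sq_nonneg _)

/-- rescaling -/
theorem scale_deriv {f F : E2 → E2} (h : ∀ q, f q = (1 / 2 : ℝ) • F ((2 : ℝ) • q)) {q : E2}
    {A : E2 →L[ℝ] E2} (hF : HasFDerivAt F A ((2 : ℝ) • q)) : HasFDerivAt f A q := by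
  have h1 : HasFDerivAt (fun q : E2 => (2 : ℝ) • q) ((2 : ℝ) • ContinuousLinearMap.id ℝ E2) q :=
    ((2 : ℝ) • ContinuousLinearMap.id ℝ E2).hasFDerivAt
  have h2 := (hF.comp q h1).const_smul (1 / 2 : ℝ)
  have e : f = fun q => (1 / 2 : ℝ) • F ((2 : ℝ) • q) := funext h
  rw [e]
  refine h2.congr_fderiv ?_
  ext1 v
  change (1 / 2 : ℝ) • A ((2 : ℝ) • v) = A v
  rw [map_smul, smul_smul]
  norm_num

/-- the global part -/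
theorem Gd2.glob (S : Gd2 P ρ C ρ' κ K) {x : X} {ξ : B} (h : ξ ≠ L.ep x) {q : E2}
    (hq : P.Af.pt x q ≠ ξ) :
    ContDiffAt ℝ 1 (P.hh x ξ) q ∧ (fderiv ℝ (P.hh x ξ) q).IsInvertible := by
  have h1 : S.toIn.ai x ((2 : ℝ) • q) ≠ S.toIn.em (L.hol ξ x) := by
    change P.Af.pt x ((1 / 2 : ℝ) • ((2 : ℝ) • q)) ≠ L.em (L.hol ξ x)
    rw [L.hol_em _ _ h, smul_smul]
    norm_num
    exact hq
  obtain ⟨h2, h3⟩ := S.toIn.hol_at h1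
  set F : E2 → E2 := fun z => S.toIn.a (L.hol ξ x) (S.toIn.ai x z) with hF
  have e : ∀ q, P.hh x ξ q = (1 / 2 : ℝ) • F ((2 : ℝ) • q) := by
    intro q
    change P.Af.ch (L.hol ξ x) (P.Af.pt x q) = (1 / 2 : ℝ) • ((2 : ℝ) •
      P.Af.ch (L.hol ξ x) (P.Af.pt x ((1 / 2 : ℝ) • ((2 : ℝ) • q))))
    rw [smul_smul, smul_smul]
    norm_num
  have h4 := scale_deriv e (h2.differentiableAt (by norm_num)).hasFDerivAt
  refine ⟨?_, ?_⟩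
  · have e' : P.hh x ξ = fun q => (1 / 2 : ℝ) • F ((2 : ℝ) • q) := funext e
    rw [e']
    have h5 : ContDiffAt ℝ 1 (fun q : E2 => (2 : ℝ) • q) q := contDiffAt_id.const_smul 2
    exact (h2.comp q h5).const_smul (1 / 2 : ℝ)
  · rw [h4.fderiv]
    exact h3

/-- the estimate at the centre -/
theorem Gd2.centre (S : Gd2 P ρ C ρ' κ K) : ∃ K' : ℝ, 0 ≤ K' ∧ ∀ x ξ, P.Nr ρ' x ξ →
    DifferentiableAt ℝ (P.hh x ξ) 0 ∧
      ‖fderiv ℝ (P.hh x ξ) 0 - fderiv ℝ (P.Aq x ξ) 0‖ ≤ K' * ‖P.gr x ξ 0‖ ^ κ := by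
  refine ⟨2 * max S.toIn.sys.KK 0, by positivity, fun x ξ h => ?_⟩
  have hG : (x, ξ) ∈ S.toIn.G := h
  have hNr : P.Nr ρ x ξ := by
    have h1 := S.self x ξ h 0
    rwa [Nat.cast_zero, L.φ_zero] at h1
  obtain ⟨h1, h2⟩ := S.toIn.good_deriv hG
  set Lx := S.toIn.sys.L (S.toIn.pr x ξ hG) with hLx
  set F : E2 → E2 := fun z => Mx P x ξ ((Mx P x ξ).symm ((2 : ℝ) •
    P.Af.ch (L.hol ξ x) (P.Af.pt x ((1 / 2 : ℝ) • z)))) with hF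
  have h3 : HasFDerivAt F ((Mx P x ξ : E2 →L[ℝ] E2).comp Lx) 0 :=
    (Mx P x ξ : E2 →L[ℝ] E2).hasFDerivAt.comp 0 h1
  have e : ∀ q, P.hh x ξ q = (1 / 2 : ℝ) • F ((2 : ℝ) • q) := by
    intro q
    rw [hF]
    simp only [ContinuousLinearEquiv.apply_symm_apply]
    change P.Af.ch (L.hol ξ x) (P.Af.pt x q) = (1 / 2 : ℝ) • ((2 : ℝ) •
      P.Af.ch (L.hol ξ x) (P.Af.pt x ((1 / 2 : ℝ) • ((2 : ℝ) • q))))
    rw [smul_smul, smul_smul]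
    norm_num
  have h4 : HasFDerivAt (P.hh x ξ) ((Mx P x ξ : E2 →L[ℝ] E2).comp Lx) 0 :=
    scale_deriv e (by rw [smul_zero]; exact h3)
  refine ⟨h4.differentiableAt, ?_⟩
  have hM := Mx_coe (invertible_of_close (S.near x ξ hNr 0 (mem_ball_self one_pos)))
  rw [h4.fderiv, ← hM]
  have e2 : (Mx P x ξ : E2 →L[ℝ] E2).comp Lx - (Mx P x ξ : E2 →L[ℝ] E2) =
      (Mx P x ξ : E2 →L[ℝ] E2).comp (Lx - 1) := by
    ext1 v
    simp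
  rw [e2]
  have hn : ‖(Mx P x ξ : E2 →L[ℝ] E2)‖ ≤ 2 :=
    ContinuousLinearMap.opNorm_le_bound _ (by norm_num) fun v => S.toBas.Mx_le hNr v
  have ht : 0 ≤ ‖P.gr x ξ 0‖ ^ κ := Real.rpow_nonneg (norm_nonneg _) _
  calc _ ≤ ‖(Mx P x ξ : E2 →L[ℝ] E2)‖ * ‖Lx - 1‖ := ContinuousLinearMap.opNorm_comp_le _ _
    _ ≤ 2 * (S.toIn.sys.KK * ‖P.gr x ξ 0‖ ^ κ) := mul_le_mul hn h2 (norm_nonneg _) (by norm_num)
    _ ≤ 2 * (max S.toIn.sys.KK 0 * ‖P.gr x ξ 0‖ ^ κ) := by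
        refine mul_le_mul_of_nonneg_left ?_ (by norm_num)
        exact mul_le_mul_of_nonneg_right (le_max_left _ _) ht
    _ = _ := by ring

/-- the data of the instance exist -/
theorem exists_gd2 (S : Bas P ρ C) (hB : BaseCh P ρ)
    (hM : ∀ ξ v, ContinuousOn (fun x => fderiv ℝ (P.Aq x ξ) 0 v) {x | P.Nr ρ x ξ}) :
    ∃ ρ', 0 < ρ' ∧ ρ' ≤ ρ ∧ ∀ κ : ℝ, 0 < κ → κ < 1 → P.Ra.b < P.Ra.a + κ * P.Ra.a →
      ∃ K, Gd2 P ρ C ρ' κ K := by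
  obtain ⟨CB, hCB⟩ := hB
  have hC1 := S.C_ge
  have hCp := S.C_pos
  have hρ := S.ρ_pos
  have hD : 1 ≤ max CB 1 := le_max_right _ _
  have hDp : 0 < max CB 1 := by linarith
  obtain ⟨ρ', hρ'⟩ : ∃ ρ' : ℝ, ρ' = ρ / (C * max CB 1) := ⟨_, rfl⟩
  have h0 : 0 < ρ' := by rw [hρ']; positivity
  have h1 : C * max CB 1 * ρ' = ρ := by rw [hρ']; field_simp
  have h2 : ρ' ≤ ρ := by
    rw [← h1]
    exact le_mul_of_one_le_left h0.le (one_le_mul_of_one_le_of_one_le hC1 hD)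
  have hflow : ∀ x ξ, 0 < P.Bu.nu x ξ 0 → ‖P.gr x ξ 0‖ ≤ max CB 1 * ρ' → ∀ n : ℕ,
      P.Nr ρ (L.φ n x) ξ := by
    intro x ξ hx hg n
    obtain ⟨g1, g2⟩ := S.ang x ξ hx n (Nat.cast_nonneg n)
    refine ⟨g1, g2.trans ?_⟩
    have hexp : Real.exp (-(P.Ra.a * n)) ≤ 1 := by
      rw [Real.exp_le_one_iff]
      have := P.Ra.a_pos
      have : 0 ≤ P.Ra.a * n := by positivity
      linarith
    calc C * Real.exp (-(P.Ra.a * n)) * ‖P.gr x ξ 0‖ ≤ C * 1 * (max CB 1 * ρ') :=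
          mul_le_mul (mul_le_mul_of_nonneg_left hexp hCp.le) hg (norm_nonneg _) (by positivity)
      _ = ρ := by rw [← h1]; ring
  refine ⟨ρ', h0, h2, fun κ hκ0 hκ hp => ?_⟩
  obtain ⟨K₁, hK₁0, hK₁⟩ := S.f2 hκ0 hκ
  obtain ⟨K₂, hK₂0, hK₂⟩ := F3 S hκ0 hκ
  refine ⟨max K₁ K₂, ⟨S, hκ0, hκ, hp, ?_, ?_, fun x ξ h => exists_nr h0 h, hM,
    hK₁0.trans (le_max_left _ _), fun x ξ h h' v => (hK₁ x ξ h h' v).trans ?_,
    fun x ξ h h' w hw => (hK₂ x ξ h h' w hw).trans ?_⟩⟩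
  · intro x ξ h q hq n
    obtain ⟨g1, g2⟩ := hCB x ξ (nr_mono h2 h) q hq
    refine hflow _ ξ g1 (g2.trans ?_) n
    exact mul_le_mul (le_max_left _ _) h.2 (norm_nonneg _) hDp.le
  · intro x ξ h n
    exact hflow x ξ h.1 (h.2.trans (le_mul_of_one_le_left h0.le hD)) n
  · exact mul_le_mul_of_nonneg_right (mul_le_mul_of_nonneg_right (le_max_left _ _)
      (Real.rpow_nonneg (norm_nonneg _) _)) (norm_nonneg _)
  · exact mul_le_mul_of_nonneg_right (mul_le_mul_of_nonneg_right (le_max_right _ _)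
      (Real.rpow_nonneg (norm_nonneg _) _)) (sq_nonneg _)

/-- every exponent `κ < 1` -/
theorem rpow_max {t κ κ' : ℝ} (ht : 0 ≤ t) (ht1 : t ≤ 1) (h0 : 0 < κ') (h : κ ≤ κ') :
    t ^ κ' ≤ t ^ κ := by
  rcases ht.eq_or_lt with h1 | h1
  · rw [← h1, Real.zero_rpow h0.ne']
    exact Real.rpow_nonneg le_rfl _
  · exact Real.rpow_le_rpow_of_exponent_ge h1 ht1 h

/-- **(T3) from its inputs, for `b < 2 a`** -/
theorem t3_of_lt {ε₀ : ℝ} (hb : P.Ra.b < 2 * P.Ra.a) (h0 : 0 < ε₀) (hR : P.RateP) (hA : AngF P)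
    (h2a : P.T2a ε₀) (h2h : P.T2h ε₀) (hH : HqC P ε₀) (hB : BaseCh P ε₀)
    (hM : ∀ ξ v, ContinuousOn (fun x => fderiv ℝ (P.Aq x ξ) 0 v) {x | P.Nr ε₀ x ξ}) :
    ∃ ε₁, 0 < ε₁ ∧ ε₁ ≤ ε₀ ∧ ∀ ε ≤ ε₁, P.T3 ε := by
  obtain ⟨ρ, C, hρε, S⟩ := exists_bas h0 hR hA h2a h2h hH
  have hBρ : BaseCh P ρ := by
    obtain ⟨CB, hCB⟩ := hB
    exact ⟨CB, fun x ξ h => hCB x ξ (nr_mono hρε h)⟩
  obtain ⟨ρ', hρ'0, hρ'ρ, hG⟩ := exists_gd2 S hBρ fun ξ v =>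
    (hM ξ v).mono fun x hx => nr_mono hρε hx
  have ha := P.Ra.a_pos
  have hab := P.Ra.a_le_b
  obtain ⟨m, hm⟩ : ∃ m : ℝ, m = (1 + (P.Ra.b - P.Ra.a) / P.Ra.a) / 2 := ⟨_, rfl⟩
  have hm0 : 0 ≤ (P.Ra.b - P.Ra.a) / P.Ra.a := by
    apply div_nonneg <;> linarith
  have hm1 : (P.Ra.b - P.Ra.a) / P.Ra.a < 1 := by
    rw [div_lt_one ha]; linarith
  have hm2 : 0 < m := by rw [hm]; linarith
  have hm3 : m < 1 := by rw [hm]; linarith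
  have hm4 : P.Ra.b - P.Ra.a < m * P.Ra.a := by
    rw [← div_lt_iff₀ ha, hm]; linarith
  have hall : ∀ κ : ℝ, m ≤ κ → κ < 1 → ∃ K, Gd2 P ρ C ρ' κ K := fun κ h1 h2 =>
    hG κ (hm2.trans_le h1) h2 (by
      have : m * P.Ra.a ≤ κ * P.Ra.a := mul_le_mul_of_nonneg_right h1 ha.le
      linarith)
  have hz : ∀ κ : ℝ, κ < 1 → ∃ C, ∀ x ξ, P.Nr ρ' x ξ → DifferentiableAt ℝ (P.hh x ξ) 0 ∧
      ‖fderiv ℝ (P.hh x ξ) 0 - fderiv ℝ (P.Aq x ξ) 0‖ ≤ C * ‖P.gr x ξ 0‖ ^ κ := by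
    intro κ hκ
    obtain ⟨K, hK⟩ := hall (max κ m) (le_max_right _ _) (max_lt hκ hm3)
    obtain ⟨K', hK'0, hK'⟩ := hK.centre
    refine ⟨K', fun x ξ h => ?_⟩
    obtain ⟨h1, h2⟩ := hK' x ξ h
    refine ⟨h1, h2.trans (mul_le_mul_of_nonneg_left ?_ hK'0)⟩
    exact rpow_max (norm_nonneg _) (h.2.trans (hρ'ρ.trans S.ρ_le))
      (hm2.trans_le (le_max_right _ _)) (le_max_left _ _)
  have hle : ρ' ≤ ε₀ := hρ'ρ.trans hρε
  have h2a' : P.T2a ρ' := by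
    obtain ⟨a1, a2, a3, C4, a4⟩ := h2a
    refine ⟨fun κ hκ k hk => ?_, a2, fun x ξ h => a3 x ξ (nr_mono hle h), C4,
      fun x ξ h => a4 x ξ (nr_mono hle h)⟩
    obtain ⟨M, hM⟩ := a1 κ hκ k hk
    exact ⟨M, fun x ξ h => hM x ξ (nr_mono hle h)⟩
  have h2h' : P.T2h ρ' := by
    obtain ⟨C2, hC2⟩ := h2h
    exact ⟨C2, fun x ξ h => hC2 x ξ (nr_mono hle h)⟩
  have hH' : HqC P ρ' := by
    obtain ⟨C3, hC3⟩ := hH
    exact ⟨C3, fun x ξ h => hC3 x ξ (nr_mono hle h)⟩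
  have hB' : BaseCh P ρ' := by
    obtain ⟨CB, hCB⟩ := hB
    exact ⟨CB, fun x ξ h => hCB x ξ (nr_mono hle h)⟩
  obtain ⟨ε₁, hε1, hε2, hε3⟩ := t3_quant P hρ'0 hR h2a' h2h' hH' hB' hz
  refine ⟨ε₁, hε1, hε2.trans hle, fun ε hε => ⟨fun x ξ h => ?_, fun κ hκ => ?_⟩⟩
  · obtain ⟨K, hK⟩ := hall m le_rfl hm3
    exact ⟨fun q hq => (hK.glob h hq).1.contDiffWithinAt, fun q hq => (hK.glob h hq).2⟩
  · obtain ⟨K, hK⟩ := hε3 κ hκ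
    exact ⟨K, fun x ξ h => hK x ξ (nr_mono hε h)⟩

end Vale.Agent.P207.N4.V.H988
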