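import Vale.Agent.P207.N5.H761.T3C
import Vale.Agent.P207.H988.InterC

/-!
# P207, line b < 2a, row T3: the estimates over `Pic` which use `b < 2 a` only

`Ft P x ξ w = M⁻¹ (2 • Aq x ξ (w / 2))` is the chart of `ξ` read on the disc of `x`, normalised.
`Bas.F1'`: the holonomy is `O(t)`-close to `Ft`; `Bas.F0`: Taylor; `Bas.F3`: the defect of `Ft`
under the flow is `O(t ^ κ ‖w‖ ^ 2)` in second order.
-/

set_option linter.all false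
set_option maxSynthPendingDepth 3

open Set Filter Topology Metric MeasureTheory
open scoped ContDiff

noncomputable section

namespace Vale.Agent.P207.N4.V.H988

open Vale.Agent.P207.N3
open Vale.Agent.P207.H761 (inter' invertible_of_close norm_le_of_close taylor2)
open H761 (Bas Mx ne_ep hh_flow norm_symm_le nr_mono)

variable [Dim]

variable {Γ X B : Type} [Group Γ] [MetricSpace X] [ProperSpace X] [MulAction Γ X]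
  [IsIsometricSMul Γ X] [TopologicalSpace B] [CompactSpace B] [T2Space B] [MulAction Γ B]
  [ContinuousConstSMul Γ B] {L : Leaf Γ X B} [MeasurableSpace B] [BorelSpace B] {V : Type}
  [NormedAddCommGroup V] [NormedSpace ℝ V] [FiniteDimensional ℝ V]

variable {P : Pic L V} {ρ C : ℝ}

/-- the chart, rescaled -/
def Ft (P : Pic L V) (x : X) (ξ : B) (w : E2) : E2 := (2 : ℝ) • P.Aq x ξ ((1 / 2 : ℝ) • w)

theorem norm_half (w : E2) : ‖(1 / 2 : ℝ) • w‖ = 1 / 2 * ‖w‖ := by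
  rw [norm_smul]; norm_num

theorem two_half (w : E2) : (2 : ℝ) • (1 / 2 : ℝ) • w = w := by
  rw [smul_smul]; norm_num

variable (S : Bas P ρ C)
include S

/-- (F1) -/
theorem F1' {x : X} {ξ : B} (h : P.Nr ρ x ξ) {w : E2} (hw : ‖w‖ ≤ 1) :
    ‖(2 : ℝ) • P.Af.ch (L.hol ξ x) (P.Af.pt x ((1 / 2 : ℝ) • w)) - Ft P x ξ w‖ ≤
      4 * C * ‖P.gr x ξ 0‖ := by
  have hn := norm_half w
  have hq1 : (1 / 2 : ℝ) • w ∈ ball (0 : E2) 1 := by rw [mem_ball_zero_iff, hn]; linarith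
  obtain ⟨-, -, f3, f4, f5⟩ := S.hq x ξ h _ hq1
  set q : E2 := (1 / 2 : ℝ) • w with hq
  have hq' : P.Hq x ξ q ∈ ball (0 : E2) 1 := by
    rw [mem_ball_zero_iff]
    calc ‖P.Hq x ξ q‖ = ‖(P.Hq x ξ q - q) + q‖ := by rw [sub_add_cancel]
      _ ≤ ‖P.Hq x ξ q - q‖ + ‖q‖ := norm_add_le _ _
      _ < 1 := by rw [hn]; linarith
  have e : (2 : ℝ) • P.Af.ch (L.hol ξ x) (P.Af.pt x q) - Ft P x ξ w =
      (2 : ℝ) • (P.Aq x ξ (P.Hq x ξ q) - P.Aq x ξ q) := by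
    rw [smul_sub, ← f3]
    rfl
  rw [e, norm_smul, Real.norm_ofNat]
  have h1 := S.lip h hq1 hq'
  linarith

/-- (F0) -/
theorem F0 {x : X} {ξ : B} (h : P.Nr ρ x ξ) {w : E2} (hw : ‖w‖ ≤ 1) :
    ‖Ft P x ξ w - Ft P x ξ 0 - Mx P x ξ w‖ ≤ C * ‖w‖ ^ 2 := by
  have hn := norm_half w
  have hq1 : (1 / 2 : ℝ) • w ∈ ball (0 : E2) 1 := by rw [mem_ball_zero_iff, hn]; linarith
  obtain ⟨-, t2⟩ := taylor2 (S.sm x ξ h) (S.b2 x ξ h) hq1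
  rw [hn] at t2
  have e : Ft P x ξ w - Ft P x ξ 0 - Mx P x ξ w = (2 : ℝ) •
      (P.Aq x ξ ((1 / 2 : ℝ) • w) - P.Aq x ξ 0 - fderiv ℝ (P.Aq x ξ) 0 ((1 / 2 : ℝ) • w)) := by
    rw [S.Mx_apply h, smul_sub, smul_sub, ← map_smul, two_half, Ft, Ft, smul_zero]
  rw [e, norm_smul, Real.norm_ofNat]
  have h3 : 0 ≤ C * ‖w‖ ^ 2 := mul_nonneg S.C_pos.le (sq_nonneg _)
  calc _ ≤ 2 * (C * (1 / 2 * ‖w‖) ^ 2) := by linarith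
    _ = C * ‖w‖ ^ 2 / 2 := by ring
    _ ≤ _ := by linarith

/-- the charts are nearly intertwined by the flow -/
theorem f2z' {x : X} {ξ : B} (h : P.Nr ρ x ξ) (h' : P.Nr ρ (L.φ 1 x) ξ) {w : E2}
    (hw : ‖w‖ < 3 / 4) (hw' : ‖P.Af.P 1 x w‖ < 3 / 4) :
    ‖P.Af.P 1 (L.hol ξ x) (P.Aq x ξ w) - P.Aq (L.φ 1 x) ξ (P.Af.P 1 x w)‖ ≤
      2 * C ^ 2 * (Real.exp P.Ra.b + 1) * ‖P.gr x ξ 0‖ := by
  have hw1 : w ∈ ball (0 : E2) 1 := by rw [mem_ball_zero_iff]; linarith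
  have hw1' : P.Af.P 1 x w ∈ ball (0 : E2) 1 := by rw [mem_ball_zero_iff]; linarith
  obtain ⟨-, -, a3, a4, a5⟩ := S.hq x ξ h w hw1
  obtain ⟨-, -, b3, b4, b5⟩ := S.hq _ ξ h' _ hw1'
  set P' := P.Af.P 1 (L.hol ξ x) with hP'
  set u := P.Hq x ξ w with hu
  set u' := P.Hq (L.φ 1 x) ξ (P.Af.P 1 x w) with hu'
  have hu1 : u ∈ ball (0 : E2) 1 := by
    rw [mem_ball_zero_iff]
    calc ‖u‖ = ‖(u - w) + w‖ := by rw [sub_add_cancel]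
      _ ≤ ‖u - w‖ + ‖w‖ := norm_add_le _ _
      _ < 1 := by linarith
  have hu1' : u' ∈ ball (0 : E2) 1 := by
    rw [mem_ball_zero_iff]
    calc ‖u'‖ = ‖(u' - P.Af.P 1 x w) + P.Af.P 1 x w‖ := by rw [sub_add_cancel]
      _ ≤ ‖u' - P.Af.P 1 x w‖ + ‖P.Af.P 1 x w‖ := norm_add_le _ _
      _ < 1 := by linarith
  have key : P' (P.Aq x ξ u) = P.Aq (L.φ 1 x) ξ u' := by
    rw [← a3, ← b3, hh_flow (ne_ep h.1) 1 (S.pt_ne h hw1)]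
  have hang := (S.ang x ξ h.1 1 zero_le_one).2
  have hexp : Real.exp (-(P.Ra.a * 1)) ≤ 1 := by
    rw [Real.exp_le_one_iff]
    have := P.Ra.a_pos
    linarith
  set t := ‖P.gr x ξ 0‖ with ht
  have ht0 : 0 ≤ t := norm_nonneg _
  have hCp := S.C_pos
  have hC1 := S.C_ge
  have hang' : ‖P.gr (L.φ 1 x) ξ 0‖ ≤ C * t := by
    refine hang.trans ?_
    exact mul_le_mul_of_nonneg_right (mul_le_of_le_one_right hCp.le hexp) ht0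
  have e : P' (P.Aq x ξ w) - P.Aq (L.φ 1 x) ξ (P.Af.P 1 x w) =
      P' (P.Aq x ξ w - P.Aq x ξ u) + (P.Aq (L.φ 1 x) ξ u' - P.Aq (L.φ 1 x) ξ (P.Af.P 1 x w)) := by
    rw [map_sub, key]; abel
  have c1 : ‖P' (P.Aq x ξ w - P.Aq x ξ u)‖ ≤ Real.exp P.Ra.b * (2 * (C * t)) := by
    have h1 := (S.rate 1 zero_le_one (L.hol ξ x) (P.Aq x ξ w - P.Aq x ξ u)).2
    rw [mul_one] at h1
    refine h1.trans (mul_le_mul_of_nonneg_left ?_ (Real.exp_pos _).le)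
    refine (S.lip h hu1 hw1).trans ?_
    rw [norm_sub_rev]
    linarith
  have c2 : ‖P.Aq (L.φ 1 x) ξ u' - P.Aq (L.φ 1 x) ξ (P.Af.P 1 x w)‖ ≤ 2 * (C * (C * t)) := by
    refine (S.lip h' hw1' hu1').trans ?_
    have : C * ‖P.gr (L.φ 1 x) ξ 0‖ ≤ C * (C * t) := mul_le_mul_of_nonneg_left hang' hCp.le
    linarith
  rw [e]
  refine (norm_add_le _ _).trans ((add_le_add c1 c2).trans ?_)
  have n7 : C * t ≤ C ^ 2 * t := mul_le_mul_of_nonneg_right (by nlinarith) ht0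
  have n8 : Real.exp P.Ra.b * (C * t) ≤ Real.exp P.Ra.b * (C ^ 2 * t) :=
    mul_le_mul_of_nonneg_left n7 (Real.exp_pos _).le
  nlinarith

/-- (F3) before the normalisation -/
theorem f3 {κ : ℝ} (hκ0 : 0 < κ) (hκ : κ < 1) : ∃ K : ℝ, 0 ≤ K ∧ ∀ x ξ, P.Nr ρ x ξ →
    P.Nr ρ (L.φ 1 x) ξ → ∀ w, ‖P.Af.P 1 x w‖ ≤ 1 / 2 →
      ‖(P.Af.P 1 (L.hol ξ x) (P.Aq x ξ w) - P.Aq (L.φ 1 x) ξ (P.Af.P 1 x w)) -
        (P.Af.P 1 (L.hol ξ x) (P.Aq x ξ 0) - P.Aq (L.φ 1 x) ξ 0) -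
        (P.Af.P 1 (L.hol ξ x) (fderiv ℝ (P.Aq x ξ) 0 w) -
          fderiv ℝ (P.Aq (L.φ 1 x) ξ) 0 (P.Af.P 1 x w))‖ ≤
        K * ‖P.gr x ξ 0‖ ^ κ * ‖w‖ ^ 2 := by
  obtain ⟨M, hM0, hM⟩ := S.bd
  set K2 : ℝ := 2 * C ^ 2 * (Real.exp P.Ra.b + 1) with hK2
  have hK20 : 0 ≤ K2 := by positivity
  obtain ⟨K, hK0, hK⟩ := Vale.Agent.P207.H988.inter2 (E := E2) hκ0 hκ hK20
    (c := Real.exp P.Ra.b) (l := Real.exp P.Ra.b) (Real.exp_pos _).le (Real.exp_pos _).le M hM0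
  refine ⟨K, hK0, fun x ξ h h' w hw => ?_⟩
  have hPle : ∀ y w, ‖P.Af.P 1 y w‖ ≤ Real.exp P.Ra.b * ‖w‖ := by
    intro y w
    have h1 := (S.rate 1 zero_le_one y w).2
    rwa [mul_one] at h1
  have hPge : ∀ y w, ‖w‖ ≤ ‖P.Af.P 1 y w‖ := by
    intro y w
    have h1 := (S.rate 1 zero_le_one y w).1
    refine le_trans ?_ h1
    rw [mul_one]
    exact le_mul_of_one_le_left (norm_nonneg _) (Real.one_le_exp P.Ra.a_pos.le)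
  exact hK (P.Aq x ξ) (P.Aq (L.φ 1 x) ξ) (P.Af.P 1 (L.hol ξ x) : E2 →L[ℝ] E2) (P.Af.P 1 x)
    ‖P.gr x ξ 0‖ (S.sm x ξ h) (S.sm _ ξ h') (fun k hk => hM k hk x ξ h)
    (fun k hk => hM k hk _ ξ h')
    (ContinuousLinearMap.opNorm_le_bound _ (Real.exp_pos _).le (hPle _)) (hPle x) (hPge x)
    (norm_nonneg _) (fun w hw => f2z' S h h' ((hPge x w).trans_lt hw) hw) w hw

/-- (F3) -/
theorem F3 {κ : ℝ} (hκ0 : 0 < κ) (hκ : κ < 1) : ∃ K : ℝ, 0 ≤ K ∧ ∀ x ξ, P.Nr ρ x ξ →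
    P.Nr ρ (L.φ 1 x) ξ → ∀ w, ‖P.Af.P 1 x w‖ ≤ 1 →
      ‖((P.Af.P 1 (L.hol ξ x)).symm (Ft P (L.φ 1 x) ξ (P.Af.P 1 x w)) - Ft P x ξ w) -
        ((P.Af.P 1 (L.hol ξ x)).symm (Ft P (L.φ 1 x) ξ 0) - Ft P x ξ 0) -
        ((P.Af.P 1 (L.hol ξ x)).symm (Mx P (L.φ 1 x) ξ (P.Af.P 1 x w)) - Mx P x ξ w)‖ ≤
        K * ‖P.gr x ξ 0‖ ^ κ * ‖w‖ ^ 2 := by
  obtain ⟨K, hK0, hK⟩ := f3 S hκ0 hκ
  refine ⟨K, hK0, fun x ξ h h' w hw => ?_⟩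
  set P' := P.Af.P 1 (L.hol ξ x) with hP'
  set q : E2 := (1 / 2 : ℝ) • w with hq
  have hn : ‖q‖ = 1 / 2 * ‖w‖ := norm_half w
  have hPq : P.Af.P 1 x q = (1 / 2 : ℝ) • P.Af.P 1 x w := by rw [hq, map_smul]
  have hPq' : ‖P.Af.P 1 x q‖ ≤ 1 / 2 := by
    rw [hPq, norm_half]
    linarith
  have h1 := hK x ξ h h' q hPq'
  rw [hn] at h1
  set Y : E2 := (P' (P.Aq x ξ q) - P.Aq (L.φ 1 x) ξ (P.Af.P 1 x q)) -
    (P' (P.Aq x ξ 0) - P.Aq (L.φ 1 x) ξ 0) -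
    (P' (fderiv ℝ (P.Aq x ξ) 0 q) - fderiv ℝ (P.Aq (L.φ 1 x) ξ) 0 (P.Af.P 1 x q)) with hY
  have e1 : Ft P (L.φ 1 x) ξ (P.Af.P 1 x w) = (2 : ℝ) • P.Aq (L.φ 1 x) ξ (P.Af.P 1 x q) := by
    rw [Ft, ← hPq]
  have e2 : Ft P x ξ w = (2 : ℝ) • P.Aq x ξ q := rfl
  have e3 : ∀ y, Ft P y ξ 0 = (2 : ℝ) • P.Aq y ξ 0 := fun y => by rw [Ft, smul_zero]
  have e4 : Mx P x ξ w = (2 : ℝ) • fderiv ℝ (P.Aq x ξ) 0 q := by
    rw [S.Mx_apply h, ← map_smul, hq, two_half]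
  have e5 : Mx P (L.φ 1 x) ξ (P.Af.P 1 x w) =
      (2 : ℝ) • fderiv ℝ (P.Aq (L.φ 1 x) ξ) 0 (P.Af.P 1 x q) := by
    rw [S.Mx_apply h', ← map_smul, hPq, two_half]
  have key : ((P'.symm (Ft P (L.φ 1 x) ξ (P.Af.P 1 x w)) - Ft P x ξ w) -
        (P'.symm (Ft P (L.φ 1 x) ξ 0) - Ft P x ξ 0) -
        (P'.symm (Mx P (L.φ 1 x) ξ (P.Af.P 1 x w)) - Mx P x ξ w)) =
      P'.symm (-((2 : ℝ) • Y)) := by
    apply P'.injective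
    rw [ContinuousLinearEquiv.apply_symm_apply, e1, e2, e3, e3, e4, e5, hY]
    simp only [map_sub, map_smul, ContinuousLinearEquiv.apply_symm_apply, smul_sub]
    abel
  rw [key]
  have h2 := norm_symm_le S.rate zero_le_one (L.hol ξ x) (-((2 : ℝ) • Y))
  have hexp : Real.exp (-(P.Ra.a * 1)) ≤ 1 := by
    rw [Real.exp_le_one_iff]
    have := P.Ra.a_pos
    linarith
  have h3 : ‖P'.symm (-((2 : ℝ) • Y))‖ ≤ 2 * ‖Y‖ := by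
    refine h2.trans ?_
    rw [norm_neg, norm_smul, Real.norm_ofNat]
    exact mul_le_of_le_one_left (by positivity) hexp
  have ht0 : 0 ≤ K * ‖P.gr x ξ 0‖ ^ κ * ‖w‖ ^ 2 := by positivity
  calc _ ≤ 2 * ‖Y‖ := h3
    _ ≤ 2 * (K * ‖P.gr x ξ 0‖ ^ κ * (1 / 2 * ‖w‖) ^ 2) := by linarith
    _ = K * ‖P.gr x ξ 0‖ ^ κ * ‖w‖ ^ 2 / 2 := by ring
    _ ≤ _ := by linarith

end Vale.Agent.P207.N4.V.H988
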